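import Vale.Agent.Lib.P227Z.Defs

/-!
# Job A: volume of `S + [-t e₀, t e₀]` by Fubini
-/

open MeasureTheory Set
open scoped Pointwise ENNReal

namespace Vale.Agent.Lib.P227Z

/-- The fibre of a set over `y`. -/
def fibre {d : ℕ} (S : Set (V (d + 1))) (y : V d) : Set ℝ := {s | (Fin.cons s y : V (d + 1)) ∈ S}

lemma cons_tl {d : ℕ} (x : V (d + 1)) : (Fin.cons (x 0) (tl x) : V (d + 1)) = x := by
  funext i
  refine Fin.cases ?_ (fun j => ?_) i
  · simp
  · simp [tl]

lemma tl_cons {d : ℕ} (s : ℝ) (y : V d) : tl (Fin.cons s y : V (d + 1)) = y := by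
  funext i
  simp [tl]

/-- Fubini in the form needed here. -/
lemma volume_eq_lintegral_fibre {d : ℕ} {S : Set (V (d + 1))} (hS : MeasurableSet S) :
    volume S = ∫⁻ y : V d, volume (fibre S y) := by
  have hmp := volume_preserving_piFinSuccAbove (fun _ : Fin (d + 1) => ℝ) 0
  have hsymm := hmp.symm
  have h1 := hsymm.measure_preimage hS.nullMeasurableSet
  rw [← h1]
  have hmeas : MeasurableSet
      ((MeasurableEquiv.piFinSuccAbove (fun _ : Fin (d + 1) => ℝ) 0).symm ⁻¹' S) :=
    (MeasurableEquiv.piFinSuccAbove (fun _ : Fin (d + 1) => ℝ) 0).symm.measurable hS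
  rw [Measure.volume_eq_prod, Measure.prod_apply_symm hmeas]
  apply lintegral_congr
  intro y
  congr 1
  ext s
  simp only [mem_preimage, fibre, mem_setOf_eq]
  have e : (MeasurableEquiv.piFinSuccAbove (fun _ : Fin (d + 1) => ℝ) 0).symm (s, y) =
      (Fin.cons s y : V (d + 1)) := by
    apply (MeasurableEquiv.piFinSuccAbove (fun _ : Fin (d + 1) => ℝ) 0).injective
    rw [MeasurableEquiv.apply_symm_apply]
    ext i
    · simp [MeasurableEquiv.piFinSuccAbove]
    · simp [MeasurableEquiv.piFinSuccAbove]
  rw [e]

lemma fibre_compact {d : ℕ} {S : Set (V (d + 1))} (hc : IsCompact S) (y : V d) :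
    IsCompact (fibre S y) := by
  have hcl : IsClosed (tl ⁻¹' {y} : Set (V (d + 1))) := by
    apply isClosed_singleton.preimage
    apply continuous_pi
    intro i
    exact continuous_apply _
  have himg : fibre S y = (fun x : V (d + 1) => x 0) '' (S ∩ tl ⁻¹' {y}) := by
    ext s
    constructor
    · intro hs
      exact ⟨_, ⟨hs, tl_cons s y⟩, by simp⟩
    · rintro ⟨x, ⟨hx, hxy⟩, rfl⟩
      have hxy' : tl x = y := hxy
      change (Fin.cons (x 0) y : V (d + 1)) ∈ S
      rw [← hxy', cons_tl]
      exact hx
  rw [himg]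
  exact (hc.inter_right hcl).image (continuous_apply 0)

lemma fibre_convex {d : ℕ} {S : Set (V (d + 1))} (hv : Convex ℝ S) (y : V d) :
    Convex ℝ (fibre S y) := by
  intro a ha b hb u v hu hv' huv
  have := hv ha hb hu hv' huv
  change (Fin.cons (u • a + v • b) y : V (d + 1)) ∈ S
  convert this using 1
  funext i
  refine Fin.cases ?_ (fun j => ?_) i
  · simp
  · simp only [Fin.cons_succ, Pi.add_apply, Pi.smul_apply, smul_eq_mul]
    rw [← add_mul, huv, one_mul]

/-- The fibre of the sum is the fibre thickened by `t`. -/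
lemma mem_fibre_add_seg {d : ℕ} {S : Set (V (d + 1))} {t : ℝ} (y : V d) (s : ℝ) :
    s ∈ fibre (S + seg (t • (e0 : V (d + 1)))) y ↔ ∃ r : ℝ, |r| ≤ 1 ∧ s - r * t ∈ fibre S y := by
  constructor
  · intro hs
    obtain ⟨x, hx, z, ⟨r, hr, rfl⟩, hxz⟩ := Set.mem_add.mp hs
    refine ⟨r, hr, ?_⟩
    have : (Fin.cons (s - r * t) y : V (d + 1)) = x := by
      funext i
      refine Fin.cases ?_ (fun j => ?_) i
      · have := congrFun hxz 0
        simp [e0] at this
        simp [← this]
      · have := congrFun hxz j.succ
        simp [e0, Fin.succ_ne_zero] at this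
        simp [this]
    change (Fin.cons (s - r * t) y : V (d + 1)) ∈ S
    rw [this]
    exact hx
  · rintro ⟨r, hr, hs⟩
    refine Set.mem_add.mpr ⟨_, hs, r • (t • (e0 : V (d + 1))), ⟨r, hr, rfl⟩, ?_⟩
    funext i
    refine Fin.cases ?_ (fun j => ?_) i
    · simp [e0]
    · simp [e0, Fin.succ_ne_zero]

/-- The pointwise identity for the fibres. -/
lemma volume_fibre_add_seg {d : ℕ} {S : Set (V (d + 1))} (hc : IsCompact S) (hv : Convex ℝ S)
    {t : ℝ} (ht : 0 ≤ t) (y : V d) :
    volume (fibre (S + seg (t • (e0 : V (d + 1)))) y) =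
      volume (fibre S y) + (tl '' S).indicator (fun _ => ENNReal.ofReal (2 * t)) y := by
  by_cases hy : y ∈ tl '' S
  · rw [Set.indicator_of_mem hy]
    obtain ⟨x, hx, rfl⟩ := hy
    have hne : (fibre S (tl x)).Nonempty := ⟨x 0, by
      change (Fin.cons (x 0) (tl x) : V (d + 1)) ∈ S
      rw [cons_tl]; exact hx⟩
    have hcomp := fibre_compact hc (tl x)
    have hconv := fibre_convex hv (tl x)
    obtain ⟨a, haL⟩ := hcomp.exists_isLeast hne
    obtain ⟨b, hbG⟩ := hcomp.exists_isGreatest hne
    have hab : a ≤ b := haL.2 hbG.1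
    have hF : fibre S (tl x) = Icc a b := by
      ext s
      constructor
      · intro hs
        exact ⟨haL.2 hs, hbG.2 hs⟩
      · intro hs
        have := hconv.segment_subset haL.1 hbG.1
        rw [segment_eq_Icc hab] at this
        exact this hs
    have hF' : fibre (S + seg (t • (e0 : V (d + 1)))) (tl x) = Icc (a - t) (b + t) := by
      ext s
      rw [mem_fibre_add_seg, hF]
      constructor
      · rintro ⟨r, hr, h1, h2⟩
        have hrt : |r * t| ≤ t := by
          rw [abs_mul, abs_of_nonneg ht]
          nlinarith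
        have := abs_le.mp hrt
        constructor <;> linarith [this.1, this.2]
      · rintro ⟨h1, h2⟩
        rcases eq_or_lt_of_le ht with h0 | hpos
        · refine ⟨0, by simp, ?_⟩
          subst h0
          simp at h1 h2
          simpa using ⟨h1, h2⟩
        · by_cases hsa : s < a
          · refine ⟨(s - a) / t, ?_, ?_⟩
            · rw [abs_le]
              constructor
              · rw [le_div_iff₀ hpos]; linarith
              · rw [div_le_iff₀ hpos]; linarith
            · have : s - (s - a) / t * t = a := by field_simp; ring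
              rw [this]
              exact ⟨le_refl _, hab⟩
          · by_cases hsb : b < s
            · refine ⟨(s - b) / t, ?_, ?_⟩
              · rw [abs_le]
                constructor
                · rw [le_div_iff₀ hpos]; linarith
                · rw [div_le_iff₀ hpos]; linarith
              · have : s - (s - b) / t * t = b := by field_simp; ring
                rw [this]
                exact ⟨hab, le_refl _⟩
            · refine ⟨0, by simp, ?_⟩
              simp only [zero_mul, sub_zero]
              exact ⟨not_lt.mp hsa, not_lt.mp hsb⟩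
    rw [hF', hF, Real.volume_Icc, Real.volume_Icc, ← ENNReal.ofReal_add (by linarith) (by linarith)]
    congr 1
    ring
  · rw [Set.indicator_of_notMem hy, add_zero]
    have h1 : fibre S y = ∅ := by
      ext s
      simp only [mem_empty_iff_false, iff_false]
      intro hs
      exact hy ⟨_, hs, tl_cons s y⟩
    have h2 : fibre (S + seg (t • (e0 : V (d + 1)))) y = ∅ := by
      ext s
      simp only [mem_empty_iff_false, iff_false]
      intro hs
      obtain ⟨r, _, hr⟩ := (mem_fibre_add_seg y s).mp hs
      exact hy ⟨_, hr, tl_cons _ y⟩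
    rw [h1, h2]

lemma seg_isCompact {n : ℕ} (a : V n) : IsCompact (seg a) := by
  have : seg a = (fun s : ℝ => s • a) '' Icc (-1) 1 := by
    ext x
    constructor
    · rintro ⟨s, hs, rfl⟩
      exact ⟨s, abs_le.mp hs, rfl⟩
    · rintro ⟨s, hs, rfl⟩
      exact ⟨s, abs_le.mpr hs, rfl⟩
  rw [this]
  exact isCompact_Icc.image (by fun_prop)

/-- **Job A.** Fubini on `V (d+1) ≅ ℝ × V d`
(`MeasureTheory.volume_preserving_piFinSuccAbove`): every nonempty fibre of the compact convex `S`
over `y ∈ tl '' S` is a compact interval, and adding `[-t, t]` adds `2 t` to its length. -/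
theorem volume_add_seg_e0 {d : ℕ} {S : Set (V (d + 1))} (hc : IsCompact S) (hv : Convex ℝ S)
    {t : ℝ} (ht : 0 ≤ t) :
    volume (S + seg (t • (e0 : V (d + 1)))) =
      volume S + ENNReal.ofReal (2 * t) * volume (tl '' S) := by
  have hsum : IsCompact (S + seg (t • (e0 : V (d + 1)))) := hc.add (seg_isCompact _)
  have hcontl : Continuous (tl : V (d + 1) → V d) := by
    apply continuous_pi
    intro i
    exact continuous_apply _
  have htl : MeasurableSet (tl '' S) := (hc.image hcontl).measurableSet
  rw [volume_eq_lintegral_fibre hsum.measurableSet, volume_eq_lintegral_fibre hc.measurableSet]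
  simp_rw [volume_fibre_add_seg hc hv ht]
  rw [lintegral_add_right _ (measurable_const.indicator htl), lintegral_indicator_const htl]

end Vale.Agent.Lib.P227Z
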