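import Vale.Agent.Lib.P227Z.A_Fiber

/-!
# Job B: general direction; `w` and its properties
-/

open MeasureTheory Set
open scoped Pointwise ENNReal

namespace Vale.Agent.Lib.P227Z

variable {d : ℕ}

/-- A linear automorphism sending `a ≠ 0` to `e0`
(`SeparatingDual.exists_continuousLinearEquiv_apply_eq`, or a basis extension). -/
theorem exists_T {a : V (d + 1)} (ha : a ≠ 0) :
    ∃ T : V (d + 1) ≃L[ℝ] V (d + 1), T a = e0 := by
  have he : (e0 : V (d + 1)) ≠ 0 := by
    intro h
    have := congrFun h 0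
    simp [e0] at this
  exact SeparatingDual.exists_continuousLinearEquiv_apply_eq ha he

/-- `S + seg a` is compact for compact `S`. -/
theorem isCompact_add_seg {n : ℕ} {S : Set (V n)} (hc : IsCompact S) (a : V n) :
    IsCompact (S + seg a) :=
  hc.add (seg_isCompact a)

lemma seg_convex {n : ℕ} (a : V n) : Convex ℝ (seg a) := by
  rintro x ⟨r, hr, rfl⟩ y ⟨s, hs, rfl⟩ u v hu hv huv
  refine ⟨u * r + v * s, ?_, ?_⟩
  · rw [abs_le] at hr hs ⊢
    constructor <;> nlinarith [hr.1, hr.2, hs.1, hs.2]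
  · simp only [smul_smul, add_smul]

/-- `S + seg a` is convex for convex `S`. -/
theorem convex_add_seg {n : ℕ} {S : Set (V n)} (hv : Convex ℝ S) (a : V n) :
    Convex ℝ (S + seg a) :=
  hv.add (seg_convex a)

/-- The image of `S + seg (t • a)` under `T`. -/
lemma image_add_seg {S : Set (V (d + 1))} {a : V (d + 1)}
    (T : V (d + 1) ≃L[ℝ] V (d + 1)) (hT : T a = e0) (t : ℝ) :
    T '' (S + seg (t • a)) = T '' S + seg (t • (e0 : V (d + 1))) := by
  ext x
  constructor
  · rintro ⟨_, hy, rfl⟩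
    obtain ⟨p, hp, q, ⟨r, hr, rfl⟩, rfl⟩ := Set.mem_add.mp hy
    refine Set.mem_add.mpr ⟨T p, ⟨p, hp, rfl⟩, r • (t • e0), ⟨r, hr, rfl⟩, ?_⟩
    simp [map_add, map_smul, hT]
  · intro hx
    obtain ⟨_, ⟨p, hp, rfl⟩, _, ⟨r, hr, rfl⟩, rfl⟩ := Set.mem_add.mp hx
    refine ⟨p + r • (t • a), Set.mem_add.mpr ⟨p, hp, _, ⟨r, hr, rfl⟩, rfl⟩, ?_⟩
    simp [map_add, map_smul, hT]

lemma det_ne_zero (T : V (d + 1) ≃L[ℝ] V (d + 1)) :
    LinearMap.det (T : V (d + 1) →ₗ[ℝ] V (d + 1)) ≠ 0 :=
  (LinearEquiv.isUnit_det' T.toLinearEquiv).ne_zero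

/-- Key computation in real numbers. -/
lemma vol_add_seg_aux {S : Set (V (d + 1))} (hc : IsCompact S) (hv : Convex ℝ S) {a : V (d + 1)}
    (T : V (d + 1) ≃L[ℝ] V (d + 1)) (hT : T a = e0) {t : ℝ} (ht : 0 ≤ t) :
    (volume (S + seg (t • a))).toReal = (volume S).toReal +
      t * (2 / |LinearMap.det (T : V (d + 1) →ₗ[ℝ] V (d + 1))| * (volume (tl '' (T '' S))).toReal) := by
  set δ := |LinearMap.det (T : V (d + 1) →ₗ[ℝ] V (d + 1))| with hδ
  have hδpos : 0 < δ := abs_pos.mpr (det_ne_zero T)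
  have hT' : IsCompact (T '' S) := hc.image T.continuous
  have hTv : Convex ℝ (T '' S) := by
    have := hv.linear_image (T : V (d + 1) →ₗ[ℝ] V (d + 1))
    simpa using this
  have h1 := volume_add_seg_e0 hT' hTv ht
  rw [← image_add_seg T hT t] at h1
  have himg : ∀ X : Set (V (d + 1)), volume (T '' X) = ENNReal.ofReal δ * volume X := by
    intro X
    exact Measure.addHaar_image_continuousLinearEquiv volume T X
  rw [himg, himg] at h1
  have hcontl : Continuous (tl : V (d + 1) → V d) := by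
    apply continuous_pi
    intro i
    exact continuous_apply _
  have hfin1 : volume (S + seg (t • a)) ≠ ∞ := (isCompact_add_seg hc _).measure_lt_top.ne
  have hfin2 : volume S ≠ ∞ := hc.measure_lt_top.ne
  have hfin3 : volume (tl '' (T '' S)) ≠ ∞ := (hT'.image hcontl).measure_lt_top.ne
  have h2 := congrArg ENNReal.toReal h1
  rw [ENNReal.toReal_add (ENNReal.mul_ne_top ENNReal.ofReal_ne_top hfin2)
    (ENNReal.mul_ne_top ENNReal.ofReal_ne_top hfin3), ENNReal.toReal_mul, ENNReal.toReal_mul,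
    ENNReal.toReal_mul, ENNReal.toReal_ofReal hδpos.le, ENNReal.toReal_ofReal (by positivity)] at h2
  field_simp
  field_simp at h2
  linarith

/-- `w a S` in coordinates, via `T a = e0`
(`MeasureTheory.Measure.addHaar_image_continuousLinearEquiv`, `T '' (S + seg a) = T '' S + seg e0`). -/
theorem w_eq {S : Set (V (d + 1))} (hc : IsCompact S) (hv : Convex ℝ S) {a : V (d + 1)}
    (T : V (d + 1) ≃L[ℝ] V (d + 1)) (hT : T a = e0) :
    w a S = 2 / |LinearMap.det (T : V (d + 1) →ₗ[ℝ] V (d + 1))| *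
      (volume (tl '' (T '' S))).toReal := by
  have h := vol_add_seg_aux hc hv T hT (t := 1) zero_le_one
  rw [one_smul] at h
  unfold w
  rw [h]
  ring

/-- The volume of `S + [-t a, t a]` is affine in `t ≥ 0` (all `a`, also `a = 0`). -/
theorem vol_add_seg_smul {S : Set (V (d + 1))} (hc : IsCompact S) (hv : Convex ℝ S) (a : V (d + 1))
    {t : ℝ} (ht : 0 ≤ t) :
    (volume (S + seg (t • a))).toReal = (volume S).toReal + t * w a S := by
  by_cases ha : a = 0
  · subst ha
    have hseg : seg (0 : V (d + 1)) = {0} := by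
      ext x
      constructor
      · rintro ⟨s, _, rfl⟩
        simp
      · intro hx
        exact ⟨0, by simp, by simpa using hx⟩
    have e : S + ({0} : Set (V (d + 1))) = S := by simp
    simp only [smul_zero, hseg, w, e, sub_self, mul_zero, add_zero]
  · obtain ⟨T, hT⟩ := exists_T ha
    rw [w_eq hc hv T hT]
    exact vol_add_seg_aux hc hv T hT ht

/-- `w a S > 0` for `a ≠ 0`, `S` compact convex of positive volume
(`tl '' (T '' S)` has positive volume, since `T '' S ⊆ tl ⁻¹' (tl '' (T '' S))`). -/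
theorem w_pos {S : Set (V (d + 1))} (hc : IsCompact S) (hv : Convex ℝ S) (hp : 0 < volume S)
    {a : V (d + 1)} (ha : a ≠ 0) : 0 < w a S := by
  obtain ⟨T, hT⟩ := exists_T ha
  rw [w_eq hc hv T hT]
  have hδpos : 0 < |LinearMap.det (T : V (d + 1) →ₗ[ℝ] V (d + 1))| := abs_pos.mpr (det_ne_zero T)
  have hT' : IsCompact (T '' S) := hc.image T.continuous
  have hcontl : Continuous (tl : V (d + 1) → V d) := by
    apply continuous_pi
    intro i
    exact continuous_apply _
  have hfin3 : volume (tl '' (T '' S)) ≠ ∞ := (hT'.image hcontl).measure_lt_top.ne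
  have hvolT : volume (T '' S) ≠ 0 := by
    rw [Measure.addHaar_image_continuousLinearEquiv volume T S]
    exact mul_ne_zero (by simpa using hδpos) hp.ne'
  have hne : volume (tl '' (T '' S)) ≠ 0 := by
    intro h0
    apply hvolT
    rw [volume_eq_lintegral_fibre hT'.measurableSet]
    have hae : ∀ᵐ y : V d, y ∉ tl '' (T '' S) := measure_eq_zero_iff_ae_notMem.mp h0
    have : (fun y : V d => volume (fibre (T '' S) y)) =ᵐ[volume] fun _ => 0 := by
      filter_upwards [hae] with y hy
      have h1 : fibre (T '' S) y = ∅ := by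
        ext s
        simp only [mem_empty_iff_false, iff_false]
        intro hs
        exact hy ⟨_, hs, tl_cons s y⟩
      rw [h1]
      simp
    rw [lintegral_congr_ae this]
    simp
  have hpos : 0 < (volume (tl '' (T '' S))).toReal := ENNReal.toReal_pos hne hfin3
  positivity

end Vale.Agent.Lib.P227Z
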