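import Vale.Agent.Lib.P227Z.B_Linear
import Vale.Agent.Lib.P074.Part1

/-!
# Job C: Minkowski's first inequality against a zonotope

`(d+1) |S|^{d/(d+1)} |M|^{1/(d+1)} ≤ ∑ c p * w (g p) S` where `M = zonotope (c • g)`.
-/

open MeasureTheory Set Filter Topology
open scoped Pointwise ENNReal

namespace Vale.Agent.Lib.P227Z

variable {d : ℕ} {ι : Type*} [Fintype ι]

/-- The zonotope is compact. -/
theorem isCompact_zonotope {n : ℕ} (g : ι → V n) : IsCompact (zonotope g) := by
  have hK : IsCompact (Set.pi univ fun _ : ι => Icc (-1 : ℝ) 1) :=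
    isCompact_univ_pi fun _ => isCompact_Icc
  have hf : Continuous fun t : ι → ℝ => ∑ i, t i • g i := by
    fun_prop
  convert hK.image hf using 1
  ext x
  constructor
  · rintro ⟨t, ht, rfl⟩
    exact ⟨t, fun i _ => abs_le.mp (ht i), rfl⟩
  · rintro ⟨t, ht, rfl⟩
    exact ⟨t, fun i => abs_le.mpr (ht i (mem_univ i)), rfl⟩

/-- The zonotope is convex. -/
theorem convex_zonotope {n : ℕ} (g : ι → V n) : Convex ℝ (zonotope g) := by
  rintro x ⟨t, ht, rfl⟩ y ⟨t', ht', rfl⟩ a b ha hb hab
  refine ⟨fun i => a * t i + b * t' i, fun i => ?_, ?_⟩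
  · calc |a * t i + b * t' i| ≤ |a * t i| + |b * t' i| := abs_add_le _ _
      _ = a * |t i| + b * |t' i| := by rw [abs_mul, abs_mul, abs_of_nonneg ha, abs_of_nonneg hb]
      _ ≤ a * 1 + b * 1 :=
        add_le_add (mul_le_mul_of_nonneg_left (ht i) ha) (mul_le_mul_of_nonneg_left (ht' i) hb)
      _ = 1 := by linarith
  · simp only [Finset.smul_sum, smul_smul, ← Finset.sum_add_distrib, add_smul]

private lemma bernoulli_aux (n : ℕ) {α x : ℝ} (hα : 0 ≤ α) (hx : 0 ≤ x) :
    α ^ (n + 1) + ((n : ℝ) + 1) * α ^ n * x ≤ (α + x) ^ (n + 1) := by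
  induction n with
  | zero => simp
  | succ n ih =>
    have h0 : 0 ≤ α + x := add_nonneg hα hx
    have h1 : 0 ≤ ((n : ℝ) + 1) * α ^ n * x ^ 2 := by positivity
    have e : (α ^ (n + 1) + ((n : ℝ) + 1) * α ^ n * x) * (α + x) =
        α ^ (n + 1 + 1) + (((n + 1 : ℕ) : ℝ) + 1) * α ^ (n + 1) * x +
          ((n : ℝ) + 1) * α ^ n * x ^ 2 := by
      push_cast
      ring
    calc α ^ (n + 1 + 1) + (((n + 1 : ℕ) : ℝ) + 1) * α ^ (n + 1) * x
        ≤ (α ^ (n + 1) + ((n : ℝ) + 1) * α ^ n * x) * (α + x) := by linarith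
      _ ≤ (α + x) ^ (n + 1) * (α + x) := mul_le_mul_of_nonneg_right ih h0
      _ = (α + x) ^ (n + 1 + 1) := (pow_succ _ _).symm

/-- Additive Brunn-Minkowski: `|S + t M| ≥ (α + t β)^(d+1)` (from
`Vale.Agent.Lib.P074.brunn_minkowski`; see `bm_add` in `Lib/P230/Slicing2.lean` for the
computation; copy it, do not import P230). -/
theorem bm_add_smul {S M : Set (V (d + 1))} (hS : IsCompact S) (hSv : Convex ℝ S)
    (hM : IsCompact M) (hMv : Convex ℝ M) (hMn : M.Nonempty) {α β t : ℝ} (hα : 0 < α) (hβ : 0 ≤ β)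
    (ht : 0 ≤ t)
    (hαS : (volume S).toReal = α ^ (d + 1)) (hβM : (volume M).toReal = β ^ (d + 1)) :
    (α + t * β) ^ (d + 1) ≤ (volume (S + t • M)).toReal := by
  have hSM : IsCompact (S + t • M) := hS.add (hM.smul t)
  have hfin : volume (S + t • M) ≠ ∞ := hSM.measure_ne_top
  by_cases hpos : 0 < t * β
  · have hσ : 0 < α + t * β := by positivity
    set σ := α + t * β with hσdef
    have hβ' : 0 < β := by
      rcases hβ.eq_or_lt with h | h
      · rw [← h, mul_zero] at hpos
        exact absurd hpos (lt_irrefl _)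
      · exact h
    have hε0 : 0 < t * β / σ := div_pos hpos hσ
    have hε1 : t * β / σ < 1 := by
      rw [div_lt_one hσ, hσdef]
      linarith
    have h1ε : 1 - t * β / σ = α / σ := by
      rw [hσdef]
      field_simp
      ring
    have hBM := Vale.Agent.Lib.P074.brunn_minkowski (d + 1) (A := α⁻¹ • S) (B := β⁻¹ • M)
      (C := σ⁻¹ • (S + t • M)) (hSv.smul _) (hMv.smul _) (hS.isBounded.smul₀ _)
      (hM.isBounded.smul₀ _) (hS.measurableSet.const_smul_of_ne_zero (inv_ne_zero hα.ne'))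
      (hM.measurableSet.const_smul_of_ne_zero (inv_ne_zero hβ'.ne'))
      (hSM.measurableSet.const_smul_of_ne_zero (inv_ne_zero hσ.ne')) hε0 hε1 (by
        rintro _ ⟨a, ha, rfl⟩ _ ⟨y, hy, rfl⟩
        refine ⟨a + t • y, Set.add_mem_add ha (Set.smul_mem_smul_set hy), ?_⟩
        rw [h1ε]
        simp only [smul_add, smul_smul]
        congr 1
        · congr 1
          field_simp
        · congr 1
          field_simp)
    have hfr : Module.finrank ℝ (Fin (d + 1) → ℝ) = d + 1 := Module.finrank_fin_fun ℝ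
    have hSv' : volume S = ENNReal.ofReal (α ^ (d + 1)) := by
      rw [← hαS, ENNReal.ofReal_toReal hS.measure_ne_top]
    have hMv' : volume M = ENNReal.ofReal (β ^ (d + 1)) := by
      rw [← hβM, ENNReal.ofReal_toReal hM.measure_ne_top]
    have hvA : volume (α⁻¹ • S) = 1 := by
      rw [Measure.addHaar_smul, hfr, hSv', ← ENNReal.ofReal_mul (abs_nonneg _),
        abs_of_pos (by positivity), inv_pow, inv_mul_cancel₀ (by positivity)]
      simp
    have hvB : volume (β⁻¹ • M) = 1 := by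
      rw [Measure.addHaar_smul, hfr, hMv', ← ENNReal.ofReal_mul (abs_nonneg _),
        abs_of_pos (by positivity), inv_pow, inv_mul_cancel₀ (by positivity)]
      simp
    rw [hvA, hvB, ENNReal.one_rpow, ENNReal.one_rpow, one_mul, Measure.addHaar_smul, hfr,
      abs_of_pos (by positivity), inv_pow] at hBM
    have hpow : 0 < σ ^ (d + 1) := by positivity
    have h2 := ENNReal.toReal_mono (ENNReal.mul_ne_top ENNReal.ofReal_ne_top hfin) hBM
    rw [ENNReal.toReal_mul, ENNReal.toReal_ofReal (by positivity), ENNReal.toReal_one] at h2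
    have h3 : σ ^ (d + 1) * 1 ≤ σ ^ (d + 1) * ((σ ^ (d + 1))⁻¹ * (volume (S + t • M)).toReal) :=
      mul_le_mul_of_nonneg_left h2 hpow.le
    rw [← mul_assoc, mul_inv_cancel₀ hpow.ne', one_mul, mul_one] at h3
    exact h3
  · have h0 : t * β = 0 := le_antisymm (not_lt.mp hpos) (mul_nonneg ht hβ)
    rw [h0, add_zero, ← hαS]
    obtain ⟨m0, hm0⟩ := hMn
    refine ENNReal.toReal_mono hfin ?_
    calc volume S = volume ((fun x => x + (-(t • m0))) ⁻¹' S) :=
          (measure_preimage_add_right _ _ _).symm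
      _ ≤ volume (S + t • M) := measure_mono fun x hx =>
          ⟨x + -(t • m0), hx, t • m0, Set.smul_mem_smul_set hm0, by simp⟩

/-- `t • seg a = seg (t • a)`. -/
private lemma smul_seg {n : ℕ} (t : ℝ) (a : V n) : t • seg a = seg (t • a) := by
  ext x
  constructor
  · rintro ⟨y, ⟨s, hs, rfl⟩, rfl⟩
    exact ⟨s, hs, by simp only [smul_smul, mul_comm]⟩
  · rintro ⟨s, hs, rfl⟩
    exact ⟨s • a, ⟨s, hs, rfl⟩, by simp only [smul_smul, mul_comm]⟩

/-- Partial zonotope. -/
private def Zs {n : ℕ} (v : ι → V n) (s : Finset ι) : Set (V n) :=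
  {x | ∃ t : ι → ℝ, (∀ i, |t i| ≤ 1) ∧ x = ∑ i ∈ s, t i • v i}

omit [Fintype ι] in
private lemma Zs_empty {n : ℕ} (v : ι → V n) : Zs v ∅ = {0} := by
  ext x
  constructor
  · rintro ⟨t, _, rfl⟩
    simp
  · intro hx
    exact ⟨0, by simp, by simpa using hx⟩

omit [Fintype ι] in
private lemma zero_mem_Zs {n : ℕ} (v : ι → V n) (s : Finset ι) : (0 : V n) ∈ Zs v s :=
  ⟨0, by simp, by simp⟩

omit [Fintype ι] in
private lemma Zs_insert {n : ℕ} [DecidableEq ι] (v : ι → V n) {a : ι} {s : Finset ι} (ha : a ∉ s) :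
    Zs v (insert a s) = Zs v s + seg (v a) := by
  ext x
  constructor
  · rintro ⟨t, ht, rfl⟩
    rw [Finset.sum_insert ha]
    refine ⟨∑ i ∈ s, t i • v i, ⟨t, ht, rfl⟩, t a • v a, ⟨t a, ht a, rfl⟩, add_comm _ _⟩
  · rintro ⟨_, ⟨t, ht, rfl⟩, _, ⟨r, hr, rfl⟩, rfl⟩
    refine ⟨Function.update t a r, fun i => ?_, ?_⟩
    · by_cases hi : i = a
      · subst hi
        simpa using hr
      · simpa [Function.update_of_ne hi] using ht i
    · rw [Finset.sum_insert ha, Function.update_self, add_comm]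
      congr 1
      refine Finset.sum_congr rfl fun i hi => ?_
      rw [Function.update_of_ne (ne_of_mem_of_not_mem hi ha)]

private lemma Zs_univ {n : ℕ} (v : ι → V n) : Zs v Finset.univ = zonotope v := rfl

omit [Fintype ι] in
private lemma isCompact_convex_Zs {n : ℕ} (v : ι → V n) (s : Finset ι) :
    IsCompact (Zs v s) ∧ Convex ℝ (Zs v s) := by
  classical
  induction s using Finset.induction_on with
  | empty =>
    rw [Zs_empty]
    exact ⟨isCompact_singleton, convex_singleton _⟩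
  | insert a s ha ih =>
    rw [Zs_insert v ha]
    exact ⟨isCompact_add_seg ih.1 _, convex_add_seg ih.2 _⟩

/-- Perturbation: `w a (S + t Z) ≤ w a S + ε` for small `t > 0`. -/
private lemma w_perturb {S Z : Set (V (d + 1))} (hS : IsCompact S) (hZ : IsCompact Z)
    (h0 : (0 : V (d + 1)) ∈ Z) (a : V (d + 1)) {ε : ℝ} (hε : 0 < ε) :
    ∀ᶠ t in 𝓝[>] (0 : ℝ), w a (S + t • Z) ≤ w a S + ε := by
  have hA : IsCompact (S + seg a) := isCompact_add_seg hS a
  obtain ⟨R₀, hR₀⟩ := hZ.isBounded.exists_norm_le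
  set R : ℝ := max R₀ 0 with hRdef
  have hR0 : 0 ≤ R := le_max_right _ _
  have hR : ∀ y ∈ Z, ‖y‖ ≤ R := fun y hy => (hR₀ y hy).trans (le_max_left _ _)
  have hfinE : ∀ r : ℝ, volume (Metric.cthickening r (S + seg a)) ≠ ∞ := fun r =>
    (hA.isBounded.cthickening).measure_lt_top.ne
  have htend := tendsto_measure_cthickening_of_isClosed (μ := volume) (s := S + seg a)
    ⟨1, one_pos, hfinE 1⟩ hA.isClosed
  have h2 : Tendsto (fun t : ℝ => t * R) (𝓝[>] 0) (𝓝 0) := by
    have : Tendsto (fun t : ℝ => t * R) (𝓝 0) (𝓝 (0 * R)) := tendsto_id.mul tendsto_const_nhds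
    rw [zero_mul] at this
    exact this.mono_left nhdsWithin_le_nhds
  have h3 := htend.comp h2
  have h4 : Tendsto (fun t : ℝ => (volume (Metric.cthickening (t * R) (S + seg a))).toReal)
      (𝓝[>] 0) (𝓝 (volume (S + seg a)).toReal) :=
    (ENNReal.tendsto_toReal hA.measure_ne_top).comp h3
  have h5 := h4.eventually (gt_mem_nhds (show (volume (S + seg a)).toReal <
    (volume (S + seg a)).toReal + ε by linarith))
  filter_upwards [h5, self_mem_nhdsWithin] with t ht htpos
  have htpos' : 0 < t := htpos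
  have hSt : IsCompact (S + t • Z) := hS.add (hZ.smul t)
  have h6 : volume ((S + t • Z) + seg a) ≤ volume (Metric.cthickening (t * R) (S + seg a)) := by
    refine measure_mono ?_
    rintro _ ⟨_, ⟨x, hx, _, ⟨y, hy, rfl⟩, rfl⟩, z, hz, rfl⟩
    refine Metric.mem_cthickening_of_dist_le _ (x + z) _ _ (Set.add_mem_add hx hz) ?_
    have e : x + t • y + z - (x + z) = t • y := by abel
    rw [dist_eq_norm, e, norm_smul, Real.norm_eq_abs, abs_of_pos htpos']
    exact mul_le_mul_of_nonneg_left (hR y hy) htpos'.le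
  have h7 : (volume ((S + t • Z) + seg a)).toReal ≤
      (volume (Metric.cthickening (t * R) (S + seg a))).toReal :=
    ENNReal.toReal_mono (hfinE _) h6
  have h8 : (volume S).toReal ≤ (volume (S + t • Z)).toReal := by
    refine ENNReal.toReal_mono hSt.measure_ne_top (measure_mono fun x hx => ?_)
    exact ⟨x, hx, t • (0 : V (d + 1)), Set.smul_mem_smul_set h0, by simp⟩
  unfold w
  linarith

omit [Fintype ι] in
/-- First-order bound on partial zonotopes. -/
private lemma first_order_Zs {S : Set (V (d + 1))} (hS : IsCompact S) (hSv : Convex ℝ S)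
    (g : ι → V (d + 1)) (c : ι → ℝ) (hc : ∀ p, 0 ≤ c p) (s : Finset ι) :
    ∀ ε : ℝ, 0 < ε → ∀ᶠ t in 𝓝[>] (0 : ℝ),
      (volume (S + t • Zs (fun p => c p • g p) s)).toReal ≤
        (volume S).toReal + t * (∑ p ∈ s, c p * w (g p) S + ε) := by
  classical
  induction s using Finset.induction_on with
  | empty =>
    intro ε hε
    filter_upwards [self_mem_nhdsWithin] with t ht
    have ht' : 0 < t := ht
    rw [Zs_empty]
    simp only [smul_set_singleton, smul_zero, add_singleton, add_zero, image_id', Finset.sum_empty,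
      zero_add]
    have : 0 ≤ t * ε := by positivity
    linarith
  | insert a s ha ih =>
    intro ε hε
    have hca : 0 < 2 * (c a + 1) := by linarith [hc a]
    have hε' : 0 < ε / (2 * (c a + 1)) := div_pos hε hca
    have h1 := ih (ε / 2) (half_pos hε)
    have hZ := isCompact_convex_Zs (fun p => c p • g p) s
    have h2 := w_perturb hS hZ.1 (zero_mem_Zs _ s) (g a) hε'
    filter_upwards [h1, h2, self_mem_nhdsWithin] with t h1t h2t htpos
    have ht' : 0 < t := htpos
    have e : S + t • Zs (fun p => c p • g p) (insert a s) =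
        (S + t • Zs (fun p => c p • g p) s) + seg ((t * c a) • g a) := by
      rw [Zs_insert _ ha, smul_add, smul_seg, add_assoc, smul_smul]
    rw [e, vol_add_seg_smul (hS.add (hZ.1.smul t)) (hSv.add (hZ.2.smul t)) (g a)
      (mul_nonneg ht'.le (hc a)), Finset.sum_insert ha]
    have hcε : c a * (ε / (2 * (c a + 1))) ≤ ε / 2 := by
      have : c a / (c a + 1) ≤ 1 := by
        rw [div_le_one (by linarith [hc a])]
        linarith
      calc c a * (ε / (2 * (c a + 1))) = (c a / (c a + 1)) * (ε / 2) := by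
            field_simp
        _ ≤ 1 * (ε / 2) := mul_le_mul_of_nonneg_right this (by positivity)
        _ = ε / 2 := one_mul _
    have h3 : t * c a * w (g a) (S + t • Zs (fun p => c p • g p) s) ≤
        t * c a * (w (g a) S + ε / (2 * (c a + 1))) :=
      mul_le_mul_of_nonneg_left h2t (mul_nonneg ht'.le (hc a))
    have h4 : t * (c a * (ε / (2 * (c a + 1)))) ≤ t * (ε / 2) :=
      mul_le_mul_of_nonneg_left hcε ht'.le
    have e2 : t * c a * (w (g a) S + ε / (2 * (c a + 1))) =
        t * (c a * w (g a) S) + t * (c a * (ε / (2 * (c a + 1)))) := by ring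
    have e3 : t * (c a * w (g a) S + ∑ p ∈ s, c p * w (g p) S + ε) =
        t * (c a * w (g a) S) + t * (∑ p ∈ s, c p * w (g p) S + ε / 2) + t * (ε / 2) := by ring
    linarith

/-- First-order upper bound: for every `ε > 0` and all small `t > 0`,
`|S + t ∑ c p [-g p, g p]| ≤ |S| + t (∑ c p w (g p) S + ε)`.
Proof: Finset induction on the generators, using `vol_add_seg_smul` on
`S_t = S + t ∑_{q∈s} c q [-g q, g q]`, and `w a S_t ≤ |S_t + seg a| - |S|`, with
`|S_t + seg a| → |S + seg a|` as `t → 0⁺`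
(`tendsto_measure_cthickening_of_isClosed`). -/
theorem first_order_bound {S : Set (V (d + 1))} (hS : IsCompact S) (hSv : Convex ℝ S)
    (g : ι → V (d + 1)) (c : ι → ℝ) (hc : ∀ p, 0 ≤ c p) {ε : ℝ} (hε : 0 < ε) :
    ∀ᶠ t in 𝓝[>] (0 : ℝ), (volume (S + t • zonotope fun p => c p • g p)).toReal ≤
      (volume S).toReal + t * (∑ p, c p * w (g p) S + ε) :=
  first_order_Zs hS hSv g c hc Finset.univ ε hε

/-- **Minkowski's first inequality against a zonotope.** -/
theorem minkowski_zonotope {S : Set (V (d + 1))} (hS : IsCompact S) (hSv : Convex ℝ S)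
    (g : ι → V (d + 1)) (c : ι → ℝ) (hc : ∀ p, 0 ≤ c p) {α β : ℝ} (hα : 0 < α) (hβ : 0 ≤ β)
    (hαS : (volume S).toReal = α ^ (d + 1))
    (hβM : (volume (zonotope fun p => c p • g p)).toReal = β ^ (d + 1)) :
    (d + 1) * α ^ d * β ≤ ∑ p, c p * w (g p) S := by
  refine le_of_forall_pos_le_add fun ε hε => ?_
  have hfo := first_order_bound hS hSv g c hc hε
  obtain ⟨t, ht, htpos⟩ := (hfo.and self_mem_nhdsWithin).exists
  have ht' : 0 < t := htpos
  have hBM := bm_add_smul hS hSv (isCompact_zonotope fun p => c p • g p)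
    (convex_zonotope fun p => c p • g p) ⟨0, 0, by simp, by simp⟩ hα hβ ht'.le hαS hβM
  have hB := bernoulli_aux d hα.le (mul_nonneg ht'.le hβ)
  rw [hαS] at ht
  have h : t * (((d : ℝ) + 1) * α ^ d * β) ≤ t * (∑ p, c p * w (g p) S + ε) := by
    have e : ((d : ℝ) + 1) * α ^ d * (t * β) = t * (((d : ℝ) + 1) * α ^ d * β) := by ring
    linarith
  exact le_of_mul_le_mul_left h ht'

end Vale.Agent.Lib.P227Z
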