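import Vale.Agent.Lib.P227Z.Defs

/-!
# Job D: linear algebra and combinatorics of the determinant sums
-/

open MeasureTheory Set
open scoped Pointwise ENNReal

namespace Vale.Agent.Lib.P227Z

variable {d : ℕ} {ι : Type*} [Fintype ι]

/-- `|det|` does not depend on the order of the rows. -/
theorem abs_dt_perm {n : ℕ} (v : Fin n → V n) (π : Equiv.Perm (Fin n)) :
    |dt (v ∘ π)| = |dt v| := by
  unfold dt
  have e : Matrix.of (v ∘ π) = (Matrix.of v).submatrix π id := by
    ext i j
    simp [Matrix.submatrix]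
  rw [e, Matrix.det_permute, abs_mul]
  rcases Int.units_eq_one_or (Equiv.Perm.sign π) with h | h <;> simp [h]

private lemma dt_eq_alt {n : ℕ} (v : Fin n → V n) :
    dt v = Matrix.detRowAlternating (n := Fin n) (R := ℝ) v := rfl

private lemma dt_cons_add {n : ℕ} (x y : V (n + 1)) (u : Fin n → V (n + 1)) :
    dt (Fin.cons (α := fun _ => V (n + 1)) (x + y) u) =
      dt (Fin.cons (α := fun _ => V (n + 1)) x u) + dt (Fin.cons (α := fun _ => V (n + 1)) y u) := by
  simp only [dt_eq_alt]
  rw [← Fin.update_cons_zero (α := fun _ => V (n + 1)) 0 u (x + y),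
    AlternatingMap.map_update_add, Fin.update_cons_zero, Fin.update_cons_zero]

private lemma dt_cons_smul {n : ℕ} (c : ℝ) (x : V (n + 1)) (u : Fin n → V (n + 1)) :
    dt (Fin.cons (α := fun _ => V (n + 1)) (c • x) u) =
      c • dt (Fin.cons (α := fun _ => V (n + 1)) x u) := by
  simp only [dt_eq_alt]
  rw [← Fin.update_cons_zero (α := fun _ => V (n + 1)) 0 u (c • x),
    AlternatingMap.map_update_smul, Fin.update_cons_zero]

/-- `phi g τ` is linear in `x`. -/
noncomputable def phiL (g : ι → V (d + 1)) (τ : Fin d → ι) : V (d + 1) →ₗ[ℝ] ℝ where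
  toFun := phi g τ
  map_add' := by
    intro x y
    exact dt_cons_add x y _
  map_smul' := by
    intro c x
    exact dt_cons_smul c x _

private lemma sum_cons {n : ℕ} {M : Type*} [AddCommMonoid M] (F : (Fin (n + 1) → ι) → M) :
    ∑ σ, F σ = ∑ p, ∑ τ : Fin n → ι, F (Fin.cons p τ) := by
  rw [← (Fin.consEquiv (fun _ => ι)).sum_comp F, Fintype.sum_prod_type]
  rfl

private lemma comp_cons {m n : ℕ} (g : ι → V m) (p : ι) (τ : Fin n → ι) :
    (fun j => g ((Fin.cons p τ : Fin (n + 1) → ι) j)) =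
      (Fin.cons (α := fun _ => V m) (g p) (fun j => g (τ j))) := by
  funext j
  refine Fin.cases ?_ (fun i => ?_) j <;> simp

/-- `D g = ∑ p, A g p` (`σ = Fin.cons p τ`). -/
theorem D_eq_sum_A (g : ι → V (d + 1)) : D g = ∑ p, A g p := by
  unfold D A phi
  rw [sum_cons]
  simp_rw [comp_cons]

/-- `∑ τ, H g τ = D g`. -/
theorem sum_H_eq_D (g : ι → V (d + 1)) : ∑ τ, H g τ = D g := by
  unfold H
  rw [Finset.sum_comm, D_eq_sum_A]
  rfl

private lemma dt_swap {n : ℕ} (a b : V (n + 2)) (u : Fin n → V (n + 2)) :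
    dt (Fin.cons (α := fun _ => V (n + 2)) a (Fin.cons (α := fun _ => V (n + 2)) b u)) =
      - dt (Fin.cons (α := fun _ => V (n + 2)) b (Fin.cons (α := fun _ => V (n + 2)) a u)) := by
  unfold dt
  have e : Matrix.of (Fin.cons (α := fun _ => V (n + 2)) a (Fin.cons (α := fun _ => V (n + 2)) b u)) =
      (Matrix.of (Fin.cons (α := fun _ => V (n + 2)) b (Fin.cons (α := fun _ => V (n + 2)) a u))).submatrix
        (Equiv.swap (0 : Fin (n + 2)) 1) id := by
    ext i j
    simp only [Matrix.of_apply, Matrix.submatrix_apply, id]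
    refine Fin.cases ?_ (fun i' => Fin.cases ?_ (fun i'' => ?_) i') i
    · simp
    · have : (Fin.succ (0 : Fin (n + 1))) = (1 : Fin (n + 2)) := rfl
      simp [this]
    · have h0 : (Fin.succ (Fin.succ i'')) ≠ (0 : Fin (n + 2)) := Fin.succ_ne_zero _
      have h1 : (Fin.succ (Fin.succ i'')) ≠ (1 : Fin (n + 2)) := by
        intro h
        have : (Fin.succ i'') = (0 : Fin (n + 1)) := Fin.succ_injective _ h
        exact Fin.succ_ne_zero _ this
      rw [Equiv.swap_apply_of_ne_of_ne h0 h1]
      simp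
  rw [e, Matrix.det_permute, Equiv.Perm.sign_swap (by simp : (0 : Fin (n + 2)) ≠ 1)]
  simp

/-- `∑ τ', H g (Fin.cons p τ') = A g p`
(`τ = Fin.cons r τ'`; `|det (g r, g p, …)| = |det (g p, g r, …)|`). -/
theorem sum_H_cons_eq_A {d : ℕ} (g : ι → V (d + 2)) (p : ι) :
    ∑ τ' : Fin d → ι, H g (Fin.cons p τ' : Fin (d + 1) → ι) = A g p := by
  unfold H A
  rw [sum_cons (n := d), Finset.sum_comm]
  apply Finset.sum_congr rfl
  intro τ' _
  apply Finset.sum_congr rfl
  intro r _
  unfold phi
  rw [comp_cons, comp_cons, dt_swap, abs_neg]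

/-- Symmetry of the determinant sums: for any `ℓ : ι → ℝ`,
`∑ σ, |det (g ∘ σ)| * ∑ j, ℓ (σ j) = (d+1) * ∑ p, A g p * ℓ p`.
Proof: `∑ j` outside; for each `j` compose `σ` with the swap of `0` and `j`; then `σ = Fin.cons p τ`. -/
theorem sum_abs_dt_mul_sum (g : ι → V (d + 1)) (ℓ : ι → ℝ) :
    ∑ σ : Fin (d + 1) → ι, |dt fun j => g (σ j)| * ∑ j, ℓ (σ j) = (d + 1) * ∑ p, A g p * ℓ p := by
  have key : ∀ j : Fin (d + 1), ∑ σ : Fin (d + 1) → ι, |dt fun i => g (σ i)| * ℓ (σ j) =
      ∑ p, A g p * ℓ p := by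
    intro j
    let e : (Fin (d + 1) → ι) ≃ (Fin (d + 1) → ι) :=
      (Equiv.swap (0 : Fin (d + 1)) j).arrowCongr (Equiv.refl ι)
    rw [← e.sum_comp]
    have h1 : ∀ σ : Fin (d + 1) → ι, |dt fun i => g (e σ i)| * ℓ (e σ j) =
        |dt fun i => g (σ i)| * ℓ (σ 0) := by
      intro σ
      have e1 : (fun i => g (e σ i)) = (fun i => g (σ i)) ∘ (Equiv.swap (0 : Fin (d + 1)) j) := by
        funext i
        simp [e, Equiv.arrowCongr]
      have e2 : e σ j = σ 0 := by
        simp [e, Equiv.arrowCongr]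
      rw [e1, abs_dt_perm, e2]
    rw [Finset.sum_congr rfl (fun σ _ => h1 σ), sum_cons]
    apply Finset.sum_congr rfl
    intro p _
    unfold A phi
    rw [Finset.sum_mul]
    apply Finset.sum_congr rfl
    intro τ _
    rw [comp_cons]
    simp
  simp_rw [Finset.mul_sum]
  rw [Finset.sum_comm, Finset.sum_congr rfl (fun j _ => key j), Finset.sum_const, Finset.card_univ,
    Fintype.card_fin, nsmul_eq_mul]
  push_cast
  rw [Finset.mul_sum]

/-- Scaling: `det ((c • g) ∘ σ) = ∏ c (σ j) * det (g ∘ σ)`. -/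
theorem dt_smul {n : ℕ} (g : ι → V n) (c : ι → ℝ) (σ : Fin n → ι) :
    dt (fun j => c (σ j) • g (σ j)) = (∏ j, c (σ j)) * dt fun j => g (σ j) := by
  unfold dt
  have := Matrix.det_mul_column (fun j => c (σ j)) (Matrix.of fun j => g (σ j))
  rw [← this]
  congr 1

/-- Removing a generator: with `G = Function.update g p 0`,
`D g = D G + (d+1) * A g p`. Proof, per `σ`: if `σ` avoids `p` the two determinants agree; if `σ`
hits `p` at least twice `det (g ∘ σ) = 0`; if `σ` hits `p` exactly once at `j`, `det (G ∘ σ) = 0`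
and `σ = Fin.insertNth j p τ`, and `|det (g ∘ σ)| = |phi g τ (g p)|`; moreover `phi g τ (g p) = 0`
when `τ` hits `p`, so `A g p` only involves `τ` avoiding `p`. -/
theorem D_update_zero [DecidableEq ι] (g : ι → V (d + 1)) (p : ι) :
    D g = D (Function.update g p 0) + (d + 1) * A g p := by
  have h := sum_abs_dt_mul_sum g (fun q => if q = p then (1 : ℝ) else 0)
  simp only [mul_ite, mul_one, mul_zero, Finset.sum_ite_eq', Finset.mem_univ, if_true] at h
  rw [← h]
  unfold D
  rw [← Finset.sum_add_distrib]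
  apply Finset.sum_congr rfl
  intro σ _
  by_cases h0 : ∀ j, σ j ≠ p
  · have e : (fun j => Function.update g p 0 (σ j)) = fun j => g (σ j) := by
      funext j
      rw [Function.update_of_ne (h0 j)]
    rw [e]
    have hc : (∑ j, if σ j = p then (1 : ℝ) else 0) = 0 :=
      Finset.sum_eq_zero fun j _ => if_neg (h0 j)
    rw [hc, mul_zero, add_zero]
  · push Not at h0
    obtain ⟨j, hj⟩ := h0
    have hz : dt (fun i => Function.update g p 0 (σ i)) = 0 := by
      unfold dt
      apply Matrix.det_eq_zero_of_row_eq_zero j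
      intro k
      simp [hj]
    rw [hz, abs_zero, zero_add]
    by_cases h1 : ∃ j', j' ≠ j ∧ σ j' = p
    · obtain ⟨j', hne, hj'⟩ := h1
      have hz' : dt (fun i => g (σ i)) = 0 := by
        unfold dt
        apply Matrix.det_zero_of_row_eq hne
        change g (σ j') = g (σ j)
        rw [hj, hj']
      simp [hz']
    · have hc : (∑ j, if σ j = p then (1 : ℝ) else 0) = 1 := by
        rw [Finset.sum_eq_single j]
        · rw [if_pos hj]
        · intro b _ hb
          rw [if_neg]
          intro hb'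
          exact h1 ⟨b, hb, hb'⟩
        · simp
      rw [hc, mul_one]

/-- `A g p` does not change if `g p` is removed from the rows `g ∘ τ`
(`phi g τ (g p) = 0` if `τ` hits `p`). -/
theorem A_update_zero [DecidableEq ι] (g : ι → V (d + 1)) (p : ι) :
    A g p = ∑ τ : Fin d → ι, |dt (Fin.cons (g p) fun j => Function.update g p 0 (τ j))| := by
  unfold A phi
  apply Finset.sum_congr rfl
  intro τ _
  by_cases h0 : ∀ j, τ j ≠ p
  · have e : (fun j => Function.update g p 0 (τ j)) = fun j => g (τ j) := by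
      funext j
      rw [Function.update_of_ne (h0 j)]
    rw [e]
  · push Not at h0
    obtain ⟨j, hj⟩ := h0
    have hz : dt (Fin.cons (α := fun _ => V (d + 1)) (g p) fun j => Function.update g p 0 (τ j)) = 0 := by
      unfold dt
      apply Matrix.det_eq_zero_of_row_eq_zero j.succ
      intro k
      simp [hj]
    have hz' : dt (Fin.cons (α := fun _ => V (d + 1)) (g p) fun j => g (τ j)) = 0 := by
      unfold dt
      apply Matrix.det_zero_of_row_eq (i := 0) (j := j.succ) (Fin.succ_ne_zero j).symm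
      change g p = g (τ j)
      rw [hj]
    rw [hz, hz']

private lemma dt_map {n : ℕ} (T : V n →ₗ[ℝ] V n) (v : Fin n → V n) :
    dt (fun i => T (v i)) = LinearMap.det T * dt v := by
  unfold dt
  have e : Matrix.of (fun i => T (v i)) = Matrix.of v * (LinearMap.toMatrix' T).transpose := by
    ext i j
    have h := congrFun (LinearMap.toMatrix'_mulVec T (v i)) j
    simp only [Matrix.of_apply, Matrix.mul_apply, Matrix.transpose_apply]
    rw [← h, Matrix.mulVec, dotProduct]
    apply Finset.sum_congr rfl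
    intro k _
    ring
  rw [e, Matrix.det_mul, Matrix.det_transpose, LinearMap.det_toMatrix', mul_comm]

private lemma dt_cons_e0 {d : ℕ} (u : Fin d → V (d + 1)) :
    dt (Fin.cons (α := fun _ => V (d + 1)) e0 u) = dt (fun j => tl (u j)) := by
  unfold dt
  rw [Matrix.det_succ_row_zero, Finset.sum_eq_single 0]
  · simp only [Matrix.of_apply, Fin.cons_zero, Fin.val_zero, pow_zero, one_mul, e0, Pi.single_eq_same,
      Fin.succAbove_zero]
    congr 1
  · intro j _ hj
    simp [e0, hj]
  · simp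

/-- Change of coordinates: for a linear automorphism `T` with `T a = e0`, and rows `u`:
`|det (a, u₀, …)| * |det T| = |det (tl ∘ T ∘ u)|`
(multiplicativity of det; Laplace expansion along the row `e0`: `Matrix.det_succ_row_zero`). -/
theorem abs_dt_cons_e0 {a : V (d + 1)} (T : V (d + 1) ≃L[ℝ] V (d + 1)) (hT : T a = e0)
    (u : Fin d → V (d + 1)) :
    |dt (Fin.cons a u)| * |LinearMap.det (T : V (d + 1) →ₗ[ℝ] V (d + 1))| =
      |dt fun j => tl (T (u j))| := by
  have h1 := dt_map (T : V (d + 1) →ₗ[ℝ] V (d + 1)) (Fin.cons (α := fun _ => V (d + 1)) a u)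
  have h2 : (fun i => (T : V (d + 1) →ₗ[ℝ] V (d + 1)) ((Fin.cons (α := fun _ => V (d + 1)) a u) i)) =
      Fin.cons (α := fun _ => V (d + 1)) e0 (fun j => T (u j)) := by
    funext i
    refine Fin.cases ?_ (fun i' => ?_) i
    · simp [hT]
    · simp
  rw [h2, dt_cons_e0] at h1
  rw [h1, abs_mul, mul_comm]

/-- Same, with `phi`: `phi` in `V (d+2)` with first row `x` and second row `a`, in terms of
`phi` of the projected generators, up to the constant `κ = - 1 / det T`:
`det (x, a, u₀, …) = κ * det (tl (T x), tl (T u₀), …)`. -/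
theorem dt_cons_cons_e0 {d : ℕ} {a : V (d + 2)} (T : V (d + 2) ≃L[ℝ] V (d + 2)) (hT : T a = e0)
    (x : V (d + 2)) (u : Fin d → V (d + 2)) :
    dt (Fin.cons x (Fin.cons a u)) =
      (-(LinearMap.det (T : V (d + 2) →ₗ[ℝ] V (d + 2)))⁻¹) *
        dt (Fin.cons (tl (T x)) fun j => tl (T (u j))) := by
  have hu : LinearMap.det (T : V (d + 2) →ₗ[ℝ] V (d + 2)) ≠ 0 :=
    (LinearEquiv.isUnit_det' T.toLinearEquiv).ne_zero
  have h1 := dt_map (T : V (d + 2) →ₗ[ℝ] V (d + 2))
    (Fin.cons (α := fun _ => V (d + 2)) x (Fin.cons (α := fun _ => V (d + 2)) a u))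
  have h2 : (fun i => (T : V (d + 2) →ₗ[ℝ] V (d + 2))
      ((Fin.cons (α := fun _ => V (d + 2)) x (Fin.cons (α := fun _ => V (d + 2)) a u)) i)) =
      Fin.cons (α := fun _ => V (d + 2)) (T x)
        (Fin.cons (α := fun _ => V (d + 2)) e0 (fun j => T (u j))) := by
    funext i
    refine Fin.cases ?_ (fun i' => Fin.cases ?_ (fun i'' => ?_) i') i
    · simp
    · simp [hT]
    · simp
  rw [h2, dt_swap, dt_cons_e0] at h1
  have h3 : (fun j => tl ((Fin.cons (α := fun _ => V (d + 2)) (T x) (fun j => T (u j)) : Fin (d + 1) → V (d + 2)) j)) =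
      Fin.cons (α := fun _ => V (d + 1)) (tl (T x)) (fun j => tl (T (u j))) := by
    funext j
    refine Fin.cases ?_ (fun i => ?_) j <;> simp
  rw [h3] at h1
  field_simp
  linarith

end Vale.Agent.Lib.P227Z
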