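import Mathlib

/-!
# Logarithmic Minkowski inequality at zonotopes: definitions

`g : ι → V n` generators, `zonotope g = ∑ [-g i, g i]`.
For `τ : Fin d → ι` and `x : V (d+1)`, `phi g τ x = det (x, g (τ 0), …, g (τ (d-1)))` (rows).
`H g τ = ∑ r, |phi g τ (g r)|` is the maximum of `phi g τ` on the zonotope.
-/

open MeasureTheory Set
open scoped Pointwise ENNReal

namespace Vale.Agent.Lib.P227Z

/-- Real coordinate space. -/
abbrev V (n : ℕ) := Fin n → ℝ

/-- The zonotope `∑ᵢ [-gᵢ, gᵢ]`. -/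
def zonotope {n : ℕ} {ι : Type*} [Fintype ι] (g : ι → V n) : Set (V n) :=
  {x | ∃ t : ι → ℝ, (∀ i, |t i| ≤ 1) ∧ x = ∑ i, t i • g i}

/-- The segment `[-a, a]`. -/
def seg {n : ℕ} (a : V n) : Set (V n) := {x | ∃ s : ℝ, |s| ≤ 1 ∧ x = s • a}

/-- The determinant of the matrix with rows `v`. -/
noncomputable def dt {n : ℕ} (v : Fin n → V n) : ℝ := Matrix.det (Matrix.of v)

/-- The linear functional `x ↦ det (x, g (τ 0), …, g (τ (d-1)))`. -/
noncomputable def phi {d : ℕ} {ι : Type*} (g : ι → V (d + 1)) (τ : Fin d → ι) (x : V (d + 1)) : ℝ :=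
  dt (Fin.cons x fun j => g (τ j))

/-- `H g τ = ∑ r, |phi g τ (g r)|`. -/
noncomputable def H {d : ℕ} {ι : Type*} [Fintype ι] (g : ι → V (d + 1)) (τ : Fin d → ι) : ℝ :=
  ∑ r, |phi g τ (g r)|

/-- `D g = ∑_{σ : Fin n → ι} |det (g ∘ σ)|`. -/
noncomputable def D {n : ℕ} {ι : Type*} [Fintype ι] (g : ι → V n) : ℝ :=
  ∑ σ : Fin n → ι, |dt fun j => g (σ j)|

/-- `A g p = ∑_{τ : Fin d → ι} |det (g p, g ∘ τ)|`. -/
noncomputable def A {d : ℕ} {ι : Type*} [Fintype ι] (g : ι → V (d + 1)) (p : ι) : ℝ :=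
  ∑ τ : Fin d → ι, |phi g τ (g p)|

/-- The supremum of a function on a set. -/
noncomputable def supOn {n : ℕ} (L : Set (V n)) (f : V n → ℝ) : ℝ := sSup (f '' L)

/-- The first variation of volume of `S` in the direction of the segment `[-a, a]`:
`|S + [-a, a]| - |S|`, which is `2 |a| |P_{a^⊥} S|` for compact convex `S`. -/
noncomputable def w {n : ℕ} (a : V n) (S : Set (V n)) : ℝ :=
  (volume (S + seg a)).toReal - (volume S).toReal

/-- The last `d` coordinates of a point of `V (d+1)`. -/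
def tl {d : ℕ} (x : V (d + 1)) : V d := fun i => x i.succ

/-- The first basis vector of `V (d+1)`. -/
noncomputable def e0 {d : ℕ} : V (d + 1) := Pi.single 0 1

end Vale.Agent.Lib.P227Z
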