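import Vale.Agent.Lib.P227Z.B_Linear
import Vale.Agent.Lib.P227Z.C_Minkowski
import Vale.Agent.Lib.P227Z.D_Comb

/-!
# Job E: the volume of a zonotope
-/

open MeasureTheory Set
open scoped Pointwise ENNReal Nat

namespace Vale.Agent.Lib.P227Z

variable {ι : Type*} [Fintype ι]

private lemma sum_update_aux [DecidableEq ι] {n : ℕ} (g : ι → V n) (p : ι) (t : ι → ℝ) (s : ℝ) :
    ∑ i, t i • Function.update g p 0 i + s • g p = ∑ i, Function.update t p s i • g i := by
  rw [← Finset.add_sum_erase Finset.univ _ (Finset.mem_univ p),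
    ← Finset.add_sum_erase Finset.univ (fun i => Function.update t p s i • g i)
      (Finset.mem_univ p)]
  have h : ∑ x ∈ Finset.univ.erase p, t x • Function.update g p 0 x =
      ∑ x ∈ Finset.univ.erase p, Function.update t p s x • g x := by
    refine Finset.sum_congr rfl fun i hi => ?_
    have hip := (Finset.mem_erase.1 hi).1
    rw [Function.update_of_ne hip, Function.update_of_ne hip]
  rw [h]
  simp only [Function.update_self, smul_zero, zero_add]
  abel

/-- Adding a generator: with `G = Function.update g p 0`,
`zonotope g = zonotope G + seg (g p)`. -/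
theorem zonotope_update [DecidableEq ι] {n : ℕ} (g : ι → V n) (p : ι) :
    zonotope g = zonotope (Function.update g p 0) + seg (g p) := by
  ext x
  constructor
  · rintro ⟨t, ht, rfl⟩
    refine Set.mem_add.2 ⟨∑ i, t i • Function.update g p 0 i, ⟨t, ht, rfl⟩, t p • g p,
      ⟨t p, ht p, rfl⟩, ?_⟩
    rw [sum_update_aux, Function.update_eq_self]
  · intro hx
    obtain ⟨y, ⟨t, ht, rfl⟩, z, ⟨s, hs, rfl⟩, rfl⟩ := Set.mem_add.1 hx
    refine ⟨Function.update t p s, fun i => ?_, ?_⟩
    · by_cases hi : i = p
      · subst hi
        simpa using hs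
      · rw [Function.update_of_ne hi]
        exact ht i
    · rw [sum_update_aux]

private lemma tl_sum {d : ℕ} (t : ι → ℝ) (v : ι → V (d + 1)) :
    tl (∑ i, t i • v i) = ∑ i, t i • tl (v i) := by
  funext j
  simp [tl, Finset.sum_apply]

/-- Image: `tl '' (T '' zonotope g) = zonotope (tl ∘ T ∘ g)`. -/
theorem tl_image_zonotope {d : ℕ} (T : V (d + 1) ≃L[ℝ] V (d + 1)) (g : ι → V (d + 1)) :
    tl '' (T '' zonotope g) = zonotope fun p => tl (T (g p)) := by
  ext x
  constructor
  · rintro ⟨_, ⟨y, ⟨t, ht, rfl⟩, rfl⟩, rfl⟩
    refine ⟨t, ht, ?_⟩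
    rw [map_sum]
    simp only [map_smul]
    exact tl_sum _ _
  · rintro ⟨t, ht, rfl⟩
    refine ⟨T (∑ i, t i • g i), ⟨_, ⟨t, ht, rfl⟩, rfl⟩, ?_⟩
    rw [map_sum]
    simp only [map_smul]
    exact tl_sum _ _

/-- The first variation of a zonotope in dimension `d+1`, given the volume formula in dimension `d`. -/
private lemma w_formula {d : ℕ}
    (IH : ∀ g' : ι → V d, (volume (zonotope g')).toReal = 2 ^ d / (d ! : ℝ) * D g')
    (G : ι → V (d + 1)) (a : V (d + 1)) :
    w a (zonotope G) =
      2 ^ (d + 1) / (d ! : ℝ) * ∑ τ : Fin d → ι, |dt (Fin.cons a fun j => G (τ j))| := by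
  by_cases ha : a = 0
  · subst ha
    have h1 : (zonotope G) + seg (0 : V (d + 1)) = zonotope G := by
      ext x
      constructor
      · intro hx
        obtain ⟨y, hy, z, ⟨s, hs, rfl⟩, rfl⟩ := Set.mem_add.1 hx
        simpa using hy
      · intro hx
        exact Set.mem_add.2 ⟨x, hx, 0, ⟨0, by simp, by simp⟩, by simp⟩
    have h2 : ∀ τ : Fin d → ι, dt (Fin.cons (0 : V (d + 1)) fun j => G (τ j)) = 0 := by
      intro τ
      unfold dt
      exact Matrix.det_eq_zero_of_row_eq_zero 0 (fun j => by simp [Matrix.of_apply])
    unfold w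
    rw [h1]
    simp [h2]
  · obtain ⟨T, hT⟩ := exists_T ha
    rw [w_eq (isCompact_zonotope G) (convex_zonotope G) T hT, tl_image_zonotope, IH]
    unfold D
    have h3 : ∀ σ : Fin d → ι, |dt fun j => tl (T (G (σ j)))| =
        |dt (Fin.cons a fun j => G (σ j))| * |LinearMap.det (T : V (d + 1) →ₗ[ℝ] V (d + 1))| :=
      fun σ => (abs_dt_cons_e0 T hT _).symm
    simp only [h3]
    rw [← Finset.sum_mul]
    have hne : LinearMap.det (T : V (d + 1) →ₗ[ℝ] V (d + 1)) ≠ 0 :=
      (LinearEquiv.isUnit_det' T.toLinearEquiv).ne_zero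
    have habs : |LinearMap.det (T : V (d + 1) →ₗ[ℝ] V (d + 1))| ≠ 0 := abs_ne_zero.2 hne
    field_simp
    ring

private lemma volume_zero_dim {ι : Type*} [Fintype ι] (g : ι → V 0) :
    (volume (zonotope g)).toReal = 2 ^ 0 / (0 ! : ℝ) * D g := by
  have h1 : zonotope g = Set.univ := by
    refine Set.eq_univ_of_forall fun x => ⟨0, fun i => by simp, ?_⟩
    exact Subsingleton.elim _ _
  have h2 : D g = 1 := by
    unfold D dt
    simp
  have h3 : (volume (Set.univ : Set (V 0))).toReal = 1 := by
    rw [MeasureTheory.volume_pi, MeasureTheory.Measure.pi_of_empty]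
    simp
  rw [h1, h2, h3]
  simp

private lemma zonotope_zero {ι : Type*} [Fintype ι] {n : ℕ} :
    zonotope (fun _ : ι => (0 : V n)) = {0} := by
  ext x
  simp only [Set.mem_singleton_iff]
  constructor
  · rintro ⟨t, _, rfl⟩
    simp
  · rintro rfl
    exact ⟨0, fun i => by simp, by simp⟩

/-- **Volume of a zonotope**: `|Z(g)| = 2^n / n! * ∑_σ |det (g ∘ σ)|`.
Induction on `n` (all `ι`, `g`); for fixed `n+1`, Finset induction on the support of `g`
(the generators outside `s` replaced by `0`), using `zonotope_update`, `vol_add_seg_smul`, `w_eq`,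
`tl_image_zonotope`, the induction hypothesis in dimension `n`, `abs_dt_cons_e0`, `D_update_zero`,
`A_update_zero`. Base `n = 0`: the point has volume `1`, `D = 1`. All generators zero: `Z = {0}`
has volume zero, `D = 0`. -/
theorem volume_zonotope (n : ℕ) {ι : Type*} [Fintype ι] (g : ι → V n) :
    (volume (zonotope g)).toReal = 2 ^ n / (n ! : ℝ) * D g := by
  classical
  induction n with
  | zero => exact volume_zero_dim g
  | succ d IH =>
    have key : ∀ s : Finset ι, (volume (zonotope fun i => if i ∈ s then g i else 0)).toReal =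
        2 ^ (d + 1) / ((d + 1) ! : ℝ) * D (fun i => if i ∈ s then g i else 0) := by
      intro s
      induction s using Finset.induction_on with
      | empty =>
        simp only [Finset.notMem_empty, if_false]
        rw [zonotope_zero]
        have h0 : D (fun _ : ι => (0 : V (d + 1))) = 0 := by
          unfold D
          refine Finset.sum_eq_zero fun σ _ => ?_
          unfold dt
          rw [Matrix.det_eq_zero_of_row_eq_zero 0 (fun j => by simp [Matrix.of_apply])]
          simp
        rw [h0]
        simp
      | insert p s hp ih =>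
        set g' : ι → V (d + 1) := fun i => if i ∈ insert p s then g i else 0 with hg'
        have hup : Function.update g' p 0 = fun i => if i ∈ s then g i else 0 := by
          funext i
          by_cases hi : i = p
          · subst hi
            simp [hp]
          · rw [Function.update_of_ne hi]
            simp [hg', hi]
        have hZ := zonotope_update g' p
        rw [hup] at hZ
        have hD := D_update_zero g' p
        rw [hup] at hD
        have hA := A_update_zero g' p
        rw [hup] at hA
        have hV := vol_add_seg_smul (isCompact_zonotope (fun i => if i ∈ s then g i else 0))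
          (convex_zonotope (fun i => if i ∈ s then g i else 0)) (g' p) (zero_le_one)
        rw [one_smul, one_mul, ← hZ] at hV
        have hw := w_formula IH (fun i => if i ∈ s then g i else 0) (g' p)
        rw [← hA] at hw
        rw [hV, ih, hw, hD]
        have hfac : (((d + 1) ! : ℕ) : ℝ) = ((d : ℝ) + 1) * (d ! : ℝ) := by
          rw [Nat.factorial_succ]
          push_cast
          ring
        have hd : ((d ! : ℕ) : ℝ) ≠ 0 := by exact_mod_cast Nat.factorial_ne_zero d
        have hd1 : (d : ℝ) + 1 ≠ 0 := by positivity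
        rw [hfac]
        field_simp
    have h := key Finset.univ
    simpa using h

/-- The first variation of the zonotope: `w (g p) (Z g) = 2^(d+1) / d! * A g p`.
From `zonotope_update`-style: `Z g + seg (g p)` is the zonotope with `g p` replaced by `2 • g p`,
so `volume_zonotope`, and `D_update_zero` for both. -/
theorem w_zonotope {d : ℕ} (g : ι → V (d + 1)) (p : ι) :
    w (g p) (zonotope g) = 2 ^ (d + 1) / (d ! : ℝ) * A g p :=
  w_formula (fun g' => volume_zonotope d g') g (g p)

/-- Volume with scaled generators. -/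
theorem volume_zonotope_smul (n : ℕ) (g : ι → V n) (c : ι → ℝ) :
    (volume (zonotope fun p => c p • g p)).toReal =
      2 ^ n / (n ! : ℝ) * ∑ σ : Fin n → ι, (∏ j, |c (σ j)|) * |dt fun j => g (σ j)| := by
  rw [volume_zonotope]
  unfold D
  congr 1
  refine Finset.sum_congr rfl fun σ _ => ?_
  rw [dt_smul, abs_mul, Finset.abs_prod]

end Vale.Agent.Lib.P227Z
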