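import Vale.Agent.Lib.P227Z.E_Volume

/-!
# Job F: Loomis-Whitney relative to a zonotope (WLW)

`∑ π_p log (w (g p) L / w (g p) Z) ≥ (d/(d+1)) log (|L|/|Z|)`, where `π_p = A g p / D g`.

Proof. Let `c p = w (g p) Z / w (g p) L` for `g p ≠ 0` (`c p = 0` otherwise).  Then
`∑ c p w (g p) L = ∑ w (g p) Z = (2^(d+1)/d!) ∑ A g p = (d+1) |Z|`, so Minkowski gives
`|Z| ≥ α^d β`, i.e. `|Z|^(d+1) ≥ |L|^d |M|`, `M = zonotope (c • g)`; and
`|M| = 2^(d+1)/(d+1)! ∑_σ |det(g∘σ)| ∏ c (σ j)`
`≥ |Z| exp ((1/D) ∑_σ |det (g ∘ σ)| ∑_j log c (σ j))` by Jensen (`convexOn_exp.map_sum_le`)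
`= |Z| exp (((d+1)/D) ∑ p, A g p * log (c p))` (`sum_abs_dt_mul_sum`).
-/

open MeasureTheory Set
open scoped Pointwise ENNReal Nat

namespace Vale.Agent.Lib.P227Z

variable {d : ℕ} {ι : Type*} [Fintype ι]

/-- A determinant with a zero row vanishes. -/
lemma dt_eq_zero_of_zero_row {n : ℕ} (v : Fin n → V n) (j : Fin n) (h : v j = 0) : dt v = 0 := by
  unfold dt
  exact Matrix.det_eq_zero_of_row_eq_zero j fun k => by
    simp [Matrix.of_apply, h]

/-- `A g p = 0` if `g p = 0`. -/
lemma A_eq_zero_of_zero (g : ι → V (d + 1)) {p : ι} (h : g p = 0) : A g p = 0 := by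
  unfold A
  refine Finset.sum_eq_zero fun τ _ => ?_
  rw [abs_eq_zero]
  unfold phi
  exact dt_eq_zero_of_zero_row _ 0 (by simpa using h)

lemma factor_pos (d : ℕ) : (0 : ℝ) < 2 ^ (d + 1) / ((d + 1)! : ℝ) := by positivity

/-- Jensen on the volume polynomial: if `c p > 0` whenever `g p ≠ 0`, `c ≥ 0`, `0 < D g`:
`log |Z| + ((d+1) / D g) * ∑ p, A g p * log (c p) ≤ log |zonotope (c • g)|`. -/
theorem jensen_volume (g : ι → V (d + 1)) (c : ι → ℝ) (hc0 : ∀ p, 0 ≤ c p)
    (hc : ∀ p, g p ≠ 0 → 0 < c p) (hD : 0 < D g) :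
    Real.log (volume (zonotope g)).toReal + ((d + 1) / D g) * ∑ p, A g p * Real.log (c p) ≤
      Real.log (volume (zonotope fun p => c p • g p)).toReal := by
  classical
  set u : (Fin (d + 1) → ι) → ℝ := fun σ => |dt fun j => g (σ j)| with hu
  set x : (Fin (d + 1) → ι) → ℝ := fun σ => ∑ j, Real.log (c (σ j)) with hx
  have hu0 : ∀ σ, 0 ≤ u σ := fun σ => abs_nonneg _
  have hDsum : ∑ σ, u σ = D g := rfl
  -- per-term identity
  have hterm : ∀ σ, u σ * Real.exp (x σ) = (∏ j, |c (σ j)|) * u σ := by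
    intro σ
    by_cases hσ : u σ = 0
    · simp [hσ]
    · have hne : ∀ j, g (σ j) ≠ 0 := by
        intro j hj
        apply hσ
        simp only [hu]
        rw [abs_eq_zero]
        exact dt_eq_zero_of_zero_row _ j hj
      have hpos : ∀ j, 0 < c (σ j) := fun j => hc _ (hne j)
      have he : Real.exp (x σ) = ∏ j, |c (σ j)| := by
        simp only [hx]
        rw [Real.exp_sum]
        refine Finset.prod_congr rfl fun j _ => ?_
        rw [Real.exp_log (hpos j), abs_of_pos (hpos j)]
      rw [he, mul_comm]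
  -- Jensen
  have hw1 : ∑ σ, u σ / D g = 1 := by
    rw [← Finset.sum_div, hDsum, div_self hD.ne']
  have hJ := convexOn_exp.map_sum_le (t := Finset.univ) (w := fun σ => u σ / D g) (p := x)
    (fun σ _ => div_nonneg (hu0 σ) hD.le) hw1 (fun σ _ => Set.mem_univ _)
  simp only [smul_eq_mul] at hJ
  -- the sum over `σ`
  have hsum : ∑ σ, u σ / D g * x σ = ((d + 1) / D g) * ∑ p, A g p * Real.log (c p) := by
    have := sum_abs_dt_mul_sum g (fun p => Real.log (c p))
    calc ∑ σ, u σ / D g * x σ = (∑ σ, u σ * x σ) / D g := by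
          rw [Finset.sum_div]
          exact Finset.sum_congr rfl fun σ _ => by ring
      _ = ((d + 1) * ∑ p, A g p * Real.log (c p)) / D g := by rw [this]
      _ = _ := by ring
  rw [hsum] at hJ
  have hR : ∑ σ, u σ / D g * Real.exp (x σ) =
      (∑ σ : Fin (d + 1) → ι, (∏ j, |c (σ j)|) * u σ) / D g := by
    rw [Finset.sum_div]
    refine Finset.sum_congr rfl fun σ _ => ?_
    rw [← hterm σ]
    ring
  rw [hR] at hJ
  -- volumes
  have hvZ := volume_zonotope (d + 1) g
  have hvM := volume_zonotope_smul (d + 1) g c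
  rw [hvZ, hvM]
  set E := ∑ p, A g p * Real.log (c p) with hE
  set S := ∑ σ : Fin (d + 1) → ι, (∏ j, |c (σ j)|) * u σ with hS
  have hF := factor_pos d
  have hexp := Real.exp_pos (((d + 1 : ℝ) / D g) * E)
  have hSpos : 0 < S := by
    have : Real.exp (((d + 1 : ℝ) / D g) * E) ≤ S / D g := hJ
    have h2 : 0 < S / D g := lt_of_lt_of_le hexp this
    by_contra hS'
    have : S / D g ≤ 0 := div_nonpos_of_nonpos_of_nonneg (not_lt.mp hS') hD.le
    linarith
  have hlog : ((d + 1 : ℝ) / D g) * E ≤ Real.log (S / D g) := by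
    rw [Real.le_log_iff_exp_le (div_pos hSpos hD)]
    exact hJ
  rw [Real.log_div hSpos.ne' hD.ne'] at hlog
  rw [Real.log_mul hF.ne' hD.ne', Real.log_mul hF.ne' hSpos.ne']
  linarith

/-- **WLW**: Loomis-Whitney inequality relative to the zonotope. -/
theorem wlw {L : Set (V (d + 1))} (hLc : IsCompact L) (hLv : Convex ℝ L) (hLp : 0 < volume L)
    (g : ι → V (d + 1)) (hZ : 0 < volume (zonotope g)) :
    D g * d / (d + 1) * Real.log ((volume L).toReal / (volume (zonotope g)).toReal) ≤
      ∑ p, A g p * Real.log (w (g p) L / w (g p) (zonotope g)) := by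
  classical
  set Z := zonotope g with hZdef
  have hZc : IsCompact Z := isCompact_zonotope g
  have hZv : Convex ℝ Z := convex_zonotope g
  have hvZpos : 0 < (volume Z).toReal := ENNReal.toReal_pos hZ.ne' hZc.measure_lt_top.ne
  have hvLpos : 0 < (volume L).toReal := ENNReal.toReal_pos hLp.ne' hLc.measure_lt_top.ne
  have hvZ : (volume Z).toReal = 2 ^ (d + 1) / ((d + 1)! : ℝ) * D g := volume_zonotope (d + 1) g
  have hD : 0 < D g := by
    have hF := factor_pos d
    rw [hvZ] at hvZpos
    exact (pos_iff_pos_of_mul_pos hvZpos).mp hF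
  -- the weights
  set c : ι → ℝ := fun p => if g p = 0 then 0 else w (g p) Z / w (g p) L with hc
  have hwL : ∀ p, g p ≠ 0 → 0 < w (g p) L := fun p hp => w_pos hLc hLv hLp hp
  have hwZ : ∀ p, g p ≠ 0 → 0 < w (g p) Z := fun p hp => w_pos hZc hZv hZ hp
  have hc0 : ∀ p, 0 ≤ c p := by
    intro p
    simp only [hc]
    split_ifs with hp
    · exact le_rfl
    · exact (div_pos (hwZ p hp) (hwL p hp)).le
  have hcpos : ∀ p, g p ≠ 0 → 0 < c p := by
    intro p hp
    simp only [hc, if_neg hp]
    exact div_pos (hwZ p hp) (hwL p hp)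
  set M := zonotope fun p => c p • g p with hM
  have hMc : IsCompact M := isCompact_zonotope _
  -- the sum `∑ c p * w (g p) L`
  have hsumc : ∑ p, c p * w (g p) L = (d + 1) * (volume Z).toReal := by
    have h1 : ∀ p, c p * w (g p) L = 2 ^ (d + 1) / (d ! : ℝ) * A g p := by
      intro p
      by_cases hp : g p = 0
      · simp only [hc, if_pos hp, zero_mul, A_eq_zero_of_zero g hp, mul_zero]
      · simp only [hc, if_neg hp]
        rw [div_mul_cancel₀ _ (hwL p hp).ne']
        exact w_zonotope g p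
    rw [Finset.sum_congr rfl fun p _ => h1 p, ← Finset.mul_sum, ← D_eq_sum_A, hvZ,
      Nat.factorial_succ]
    push_cast
    have : (d ! : ℝ) ≠ 0 := by positivity
    field_simp
  -- Jensen
  have hJ := jensen_volume g c hc0 hcpos hD
  -- Minkowski
  set α := (volume L).toReal ^ ((1 : ℝ) / (d + 1)) with hα
  set mv := (volume M).toReal with hmv
  have hmv0 : 0 ≤ mv := ENNReal.toReal_nonneg
  set β := mv ^ ((1 : ℝ) / (d + 1)) with hβ
  have hd1 : ((d : ℝ) + 1) ≠ 0 := by positivity
  have hαpos : 0 < α := Real.rpow_pos_of_pos hvLpos _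
  have hβ0 : 0 ≤ β := Real.rpow_nonneg hmv0 _
  have hαpow : (volume L).toReal = α ^ (d + 1) := by
    rw [hα, ← Real.rpow_natCast, ← Real.rpow_mul hvLpos.le]
    push_cast
    rw [one_div, inv_mul_cancel₀ hd1, Real.rpow_one]
  have hβpow : mv = β ^ (d + 1) := by
    rw [hβ, ← Real.rpow_natCast, ← Real.rpow_mul hmv0]
    push_cast
    rw [one_div, inv_mul_cancel₀ hd1, Real.rpow_one]
  have hMink := minkowski_zonotope hLc hLv g c hc0 hαpos hβ0 hαpow hβpow
  rw [hsumc] at hMink
  have hle : α ^ d * β ≤ (volume Z).toReal := by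
    have h2 : (d + 1 : ℝ) * (α ^ d * β) ≤ (d + 1) * (volume Z).toReal := by
      calc (d + 1 : ℝ) * (α ^ d * β) = (d + 1) * α ^ d * β := by ring
        _ ≤ _ := hMink
    exact le_of_mul_le_mul_left h2 (by positivity)
  -- powers
  have hle2 : (volume L).toReal ^ d * mv ≤ (volume Z).toReal ^ (d + 1) := by
    have h3 := pow_le_pow_left₀ (by positivity) hle (d + 1)
    calc (volume L).toReal ^ d * mv = (α ^ d * β) ^ (d + 1) := by
          rw [hαpow, hβpow]
          ring
      _ ≤ _ := h3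
  -- `M` has positive volume, by Jensen
  have hMpos : 0 < mv := by
    rw [hmv, hM, volume_zonotope_smul (d + 1) g c]
    have hF := factor_pos d
    refine mul_pos hF ?_
    -- a term with non-zero determinant exists since `D g > 0`
    obtain ⟨σ, -, hσ⟩ : ∃ σ ∈ (Finset.univ : Finset (Fin (d + 1) → ι)),
        0 < |dt fun j => g (σ j)| := by
      by_contra hcon
      simp only [not_exists, not_and, not_lt] at hcon
      have : D g ≤ 0 := Finset.sum_nonpos fun σ _ => hcon σ (Finset.mem_univ _)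
      linarith
    refine Finset.sum_pos' (fun τ _ => by positivity) ⟨σ, Finset.mem_univ _, ?_⟩
    have hne : ∀ j, g (σ j) ≠ 0 := by
      intro j hj
      have : dt (fun j => g (σ j)) = 0 := dt_eq_zero_of_zero_row _ j hj
      rw [this, abs_zero] at hσ
      exact lt_irrefl _ hσ
    refine mul_pos (Finset.prod_pos fun j _ => ?_) hσ
    exact abs_pos.mpr (hcpos _ (hne j)).ne'
  -- logarithms
  have hlog : (d : ℝ) * Real.log (volume L).toReal + Real.log mv ≤
      (d + 1) * Real.log (volume Z).toReal := by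
    have h4 := Real.log_le_log (by positivity) hle2
    rw [Real.log_mul (by positivity) hMpos.ne', Real.log_pow, Real.log_pow] at h4
    push_cast at h4
    exact h4
  -- the logarithm of `c`
  have hlogc : ∑ p, A g p * Real.log (c p) =
      - ∑ p, A g p * Real.log (w (g p) L / w (g p) Z) := by
    rw [← Finset.sum_neg_distrib]
    refine Finset.sum_congr rfl fun p _ => ?_
    by_cases hp : g p = 0
    · simp [A_eq_zero_of_zero g hp]
    · simp only [hc, if_neg hp]
      rw [Real.log_div (hwZ p hp).ne' (hwL p hp).ne', Real.log_div (hwL p hp).ne' (hwZ p hp).ne']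
      ring
  rw [hlogc] at hJ
  set E := ∑ p, A g p * Real.log (w (g p) L / w (g p) Z) with hE
  rw [Real.log_div hvLpos.ne' hvZpos.ne']
  have hmain : (d + 1 : ℝ) / D g * E ≥ d * (Real.log (volume L).toReal - Real.log (volume Z).toReal) := by
    nlinarith [hJ, hlog]
  have hD1 : (0 : ℝ) < (d + 1) / D g := by positivity
  have : D g * d / (d + 1) * (Real.log (volume L).toReal - Real.log (volume Z).toReal) =
      (D g / (d + 1)) * (d * (Real.log (volume L).toReal - Real.log (volume Z).toReal)) := by ring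
  rw [this]
  have h5 : (D g / (d + 1)) * ((d + 1 : ℝ) / D g * E) = E := by
    field_simp
  calc _ ≤ (D g / (d + 1)) * ((d + 1 : ℝ) / D g * E) := by
        exact mul_le_mul_of_nonneg_left hmain (by positivity)
    _ = E := h5

end Vale.Agent.Lib.P227Z
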