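import Vale.Agent.Lib.P227Z.F_WLW

/-!
# Job G: the logarithmic Minkowski inequality at zonotopes, by induction on the dimension
-/

open MeasureTheory Set
open scoped Pointwise ENNReal Nat

namespace Vale.Agent.Lib.P227Z

variable {ι : Type*} [Fintype ι]

omit [Fintype ι] in
/-- In dimension one `phi g τ x = x 0`. -/
lemma phi_one (g : ι → V 1) (τ : Fin 0 → ι) (x : V 1) : phi g τ x = x 0 := by
  unfold phi dt
  rw [Matrix.det_fin_one]
  simp [Matrix.of_apply]

/-- Dimension one (`d = 0`): `phi g τ x = x 0`, `H = D = ∑ |g r 0|`, `|Z| = 2 H`, and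
`L ⊆ [-z, z]` with `z = sup (x 0)` on `L` by symmetry, so `|L| ≤ 2 z`. -/
theorem log_minkowski_base {L : Set (V 1)} (hLc : IsCompact L) (hLs : ∀ x ∈ L, -x ∈ L)
    (hLp : 0 < volume L) (g : ι → V 1) (hZ : 0 < volume (zonotope g)) :
    (∑ τ, H g τ) / (0 + 1) * Real.log ((volume L).toReal / (volume (zonotope g)).toReal) ≤
      ∑ τ, H g τ * Real.log (supOn L (phi g τ) / H g τ) := by
  have hZc : IsCompact (zonotope g) := isCompact_zonotope g
  have hvZpos : 0 < (volume (zonotope g)).toReal := ENNReal.toReal_pos hZ.ne' hZc.measure_lt_top.ne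
  have hvLpos : 0 < (volume L).toReal := ENNReal.toReal_pos hLp.ne' hLc.measure_lt_top.ne
  let τ₀ : Fin 0 → ι := Fin.elim0
  have hτ : ∀ τ : Fin 0 → ι, τ = τ₀ := fun τ => Subsingleton.elim _ _
  have hsum1 : ∑ τ : Fin 0 → ι, H g τ = H g τ₀ := by
    rw [Fintype.sum_eq_single τ₀ fun τ hne => absurd (hτ τ) hne]
  have hsum2 : ∑ τ : Fin 0 → ι, H g τ * Real.log (supOn L (phi g τ) / H g τ) =
      H g τ₀ * Real.log (supOn L (phi g τ₀) / H g τ₀) := by
    rw [Fintype.sum_eq_single τ₀ fun τ hne => absurd (hτ τ) hne]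
  rw [hsum1, hsum2]
  have hvol : (volume (zonotope g)).toReal = 2 * H g τ₀ := by
    rw [volume_zonotope 1 g, ← sum_H_eq_D, hsum1]
    simp
  have hH : 0 < H g τ₀ := by
    rw [hvol] at hvZpos
    linarith
  -- the bound for `L`
  set z := supOn L (phi g τ₀) with hz
  have hbdd : BddAbove (phi g τ₀ '' L) := by
    have hcont : Continuous (phi g τ₀) := by
      have : phi g τ₀ = fun x => x 0 := funext (phi_one g τ₀)
      rw [this]
      exact continuous_apply 0
    exact (hLc.image hcont).bddAbove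
  have hle : ∀ x ∈ L, x 0 ≤ z := by
    intro x hx
    have := le_csSup hbdd (mem_image_of_mem _ hx)
    rwa [phi_one] at this
  have hsub : L ⊆ Icc (fun _ => -z) (fun _ => z) := by
    intro x hx
    constructor
    · intro i
      have hi : i = 0 := Subsingleton.elim _ _
      subst hi
      have := hle (-x) (hLs x hx)
      simp only [Pi.neg_apply] at this
      simp only
      linarith
    · intro i
      have hi : i = 0 := Subsingleton.elim _ _
      subst hi
      exact hle x hx
  have hvL : (volume L).toReal ≤ 2 * z := by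
    have h1 : volume L ≤ ENNReal.ofReal (2 * z) := by
      refine (measure_mono hsub).trans ?_
      rw [Real.volume_Icc_pi, Fin.prod_univ_one]
      apply le_of_eq
      congr 1
      ring
    by_cases hz0 : 0 ≤ z
    · have := ENNReal.toReal_mono (ENNReal.ofReal_ne_top) h1
      rwa [ENNReal.toReal_ofReal (by linarith)] at this
    · exfalso
      have : ENNReal.ofReal (2 * z) = 0 := ENNReal.ofReal_of_nonpos (by linarith)
      rw [this] at h1
      exact hLp.ne' (le_antisymm h1 bot_le)
  have hzpos : 0 < z := by linarith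
  have hle2 : Real.log ((volume L).toReal / (volume (zonotope g)).toReal) ≤ Real.log (z / H g τ₀) := by
    apply Real.log_le_log (div_pos hvLpos hvZpos)
    rw [hvol, div_le_div_iff₀ (by linarith) hH]
    nlinarith
  have : H g τ₀ / (0 + 1) = H g τ₀ := by simp
  rw [this]
  exact mul_le_mul_of_nonneg_left hle2 hH.le

/-- The last coordinates as a linear map. -/
noncomputable def tlL {d : ℕ} : V (d + 1) →ₗ[ℝ] V d := LinearMap.funLeft ℝ ℝ Fin.succ

lemma tlL_apply {d : ℕ} (x : V (d + 1)) : tlL x = tl x := rfl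

lemma continuous_tl {d : ℕ} : Continuous (tl : V (d + 1) → V d) :=
  continuous_pi fun i => continuous_apply i.succ

/-- Induction step, fixed first row. For `g p ≠ 0`, `T (g p) = e0`, `ḡ = tl ∘ T ∘ g`,
`L̄ = tl '' (T '' L)`: the inequality for `(ḡ, L̄)` in dimension `d+1` gives
`A g p / (d+1) * log (w (g p) L / w (g p) Z) ≤
   ∑ τ', H g (Fin.cons p τ') * log (supOn L (phi g (Fin.cons p τ')) / H g (Fin.cons p τ'))`.
Use `dt_cons_cons_e0`, `w_eq` (ratio of the `w`), `tl_image_zonotope`.
`supOn` by symmetry of `L̄`: the constant `κ` may be negative. -/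
theorem log_minkowski_step {d : ℕ}
    (IH : ∀ (g : ι → V (d + 1)) (L : Set (V (d + 1))), IsCompact L → Convex ℝ L →
      (∀ x ∈ L, -x ∈ L) → 0 < volume L → 0 < volume (zonotope g) →
      (∑ τ, H g τ) / (d + 1) * Real.log ((volume L).toReal / (volume (zonotope g)).toReal) ≤
        ∑ τ, H g τ * Real.log (supOn L (phi g τ) / H g τ))
    (g : ι → V (d + 2)) {L : Set (V (d + 2))} (hLc : IsCompact L) (hLv : Convex ℝ L)
    (hLs : ∀ x ∈ L, -x ∈ L) (hLp : 0 < volume L) (hZ : 0 < volume (zonotope g)) (p : ι) :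
    A g p / (d + 1) * Real.log (w (g p) L / w (g p) (zonotope g)) ≤
      ∑ τ' : Fin d → ι, H g (Fin.cons p τ') *
        Real.log (supOn L (phi g (Fin.cons p τ')) / H g (Fin.cons p τ')) := by
  -- rows
  have hrows : ∀ (τ' : Fin d → ι), (fun j => g ((Fin.cons p τ' : Fin (d + 1) → ι) j)) =
      Fin.cons (g p) fun j => g (τ' j) := by
    intro τ'
    funext j
    refine Fin.cases ?_ (fun i => ?_) j <;> simp
  by_cases hp : g p = 0
  · have hA : A g p = 0 := A_eq_zero_of_zero g hp
    have hH0 : ∀ τ' : Fin d → ι, H g (Fin.cons p τ' : Fin (d + 1) → ι) = 0 := by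
      intro τ'
      unfold H
      refine Finset.sum_eq_zero fun r _ => ?_
      rw [abs_eq_zero]
      unfold phi
      rw [hrows τ']
      refine dt_eq_zero_of_zero_row _ 1 ?_
      simpa using hp
    simp [hA, hH0]
  obtain ⟨T, hT⟩ := exists_T hp
  set δ := LinearMap.det (T : V (d + 2) →ₗ[ℝ] V (d + 2)) with hδ
  have hδ0 : δ ≠ 0 := by
    have := LinearEquiv.isUnit_det' T.toLinearEquiv
    exact this.ne_zero
  set κ : ℝ := -δ⁻¹ with hκ
  have hκ0 : 0 < |κ| := abs_pos.mpr (by simpa [hκ] using hδ0)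
  set gb : ι → V (d + 1) := fun r => tl (T (g r)) with hgb
  set Lb : Set (V (d + 1)) := tl '' (T '' L) with hLb
  have hZc : IsCompact (zonotope g) := isCompact_zonotope g
  have hZv : Convex ℝ (zonotope g) := convex_zonotope g
  have hZb : zonotope gb = tl '' (T '' zonotope g) := (tl_image_zonotope T g).symm
  -- the first variations
  have hwL : w (g p) L = 2 / |δ| * (volume Lb).toReal := w_eq hLc hLv T hT
  have hwZ : w (g p) (zonotope g) = 2 / |δ| * (volume (zonotope gb)).toReal := by
    rw [hZb]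
    exact w_eq hZc hZv T hT
  have hwLpos := w_pos hLc hLv hLp hp
  have hwZpos := w_pos hZc hZv hZ hp
  have hc : (0 : ℝ) < 2 / |δ| := by positivity [abs_pos.mpr hδ0]
  have hLbpos : 0 < (volume Lb).toReal := by
    rw [hwL] at hwLpos
    exact (pos_iff_pos_of_mul_pos hwLpos).mp hc
  have hZbpos : 0 < (volume (zonotope gb)).toReal := by
    rw [hwZ] at hwZpos
    exact (pos_iff_pos_of_mul_pos hwZpos).mp hc
  have hratio : w (g p) L / w (g p) (zonotope g) =
      (volume Lb).toReal / (volume (zonotope gb)).toReal := by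
    rw [hwL, hwZ, mul_div_mul_left _ _ hc.ne']
  -- the body `Lb`
  have hLbc : IsCompact Lb := (hLc.image T.continuous).image continuous_tl
  have hLbv : Convex ℝ Lb := by
    have h1 : Convex ℝ (T '' L) := hLv.linear_image (T : V (d + 2) →ₗ[ℝ] V (d + 2))
    exact h1.linear_image tlL
  have hLbs : ∀ x ∈ Lb, -x ∈ Lb := by
    rintro _ ⟨_, ⟨x, hx, rfl⟩, rfl⟩
    refine ⟨T (-x), ⟨-x, hLs x hx, rfl⟩, ?_⟩
    rw [map_neg]
    rfl
  have hLbp : 0 < volume Lb := by
    by_contra h
    have : volume Lb = 0 := le_antisymm (not_lt.mp h) bot_le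
    rw [this] at hLbpos
    simp at hLbpos
  have hZbp : 0 < volume (zonotope gb) := by
    by_contra h
    have : volume (zonotope gb) = 0 := le_antisymm (not_lt.mp h) bot_le
    rw [this] at hZbpos
    simp at hZbpos
  have hI := IH gb Lb hLbc hLbv hLbs hLbp hZbp
  -- the functionals
  have hphi : ∀ (τ' : Fin d → ι) (x : V (d + 2)),
      phi g (Fin.cons p τ') x = κ * phi gb τ' (tl (T x)) := by
    intro τ' x
    unfold phi
    rw [hrows τ', dt_cons_cons_e0 T hT]
  have hHb : ∀ τ' : Fin d → ι, H g (Fin.cons p τ' : Fin (d + 1) → ι) = |κ| * H gb τ' := by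
    intro τ'
    unfold H
    rw [Finset.mul_sum]
    refine Finset.sum_congr rfl fun r _ => ?_
    rw [hphi, abs_mul]
  -- oddness of `phi`
  have hodd : ∀ (τ' : Fin d → ι) (y : V (d + 1)), phi gb τ' (-y) = - phi gb τ' y := by
    intro τ' y
    exact (phiL gb τ').map_neg y
  have hsup : ∀ τ' : Fin d → ι, supOn L (phi g (Fin.cons p τ')) = |κ| * supOn Lb (phi gb τ') := by
    intro τ'
    unfold supOn
    have himg : phi g (Fin.cons p τ') '' L = |κ| • (phi gb τ' '' Lb) := by
      ext s
      constructor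
      · rintro ⟨x, hx, rfl⟩
        rw [hphi]
        have hy : tl (T x) ∈ Lb := ⟨T x, ⟨x, hx, rfl⟩, rfl⟩
        rcases abs_cases κ with ⟨h1, _⟩ | ⟨h1, _⟩
        · exact ⟨_, ⟨_, hy, rfl⟩, by simp [h1]⟩
        · refine ⟨_, ⟨_, hLbs _ hy, rfl⟩, ?_⟩
          simp only [smul_eq_mul, hodd, h1]
          ring
      · rintro ⟨_, ⟨_, ⟨_, ⟨x, hx, rfl⟩, rfl⟩, rfl⟩, rfl⟩
        simp only [smul_eq_mul]
        rcases abs_cases κ with ⟨h1, _⟩ | ⟨h1, _⟩
        · exact ⟨x, hx, by rw [hphi, h1]⟩
        · refine ⟨-x, hLs x hx, ?_⟩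
          rw [hphi, h1, map_neg]
          have : tl (-(T x)) = - tl (T x) := rfl
          rw [this, hodd]
          ring
    rw [himg, Real.sSup_smul_of_nonneg (abs_nonneg κ)]
    rfl
  have hlogeq : ∀ τ' : Fin d → ι,
      Real.log (supOn L (phi g (Fin.cons p τ')) / H g (Fin.cons p τ')) =
        Real.log (supOn Lb (phi gb τ') / H gb τ') := by
    intro τ'
    rw [hsup, hHb, mul_div_mul_left _ _ hκ0.ne']
  -- assemble
  have hAeq : A g p = |κ| * ∑ τ', H gb τ' := by
    rw [← sum_H_cons_eq_A, Finset.mul_sum]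
    exact Finset.sum_congr rfl fun τ' _ => hHb τ'
  rw [hratio, hAeq]
  have hRHS : ∑ τ' : Fin d → ι, H g (Fin.cons p τ') *
        Real.log (supOn L (phi g (Fin.cons p τ')) / H g (Fin.cons p τ')) =
      |κ| * ∑ τ', H gb τ' * Real.log (supOn Lb (phi gb τ') / H gb τ') := by
    rw [Finset.mul_sum]
    refine Finset.sum_congr rfl fun τ' _ => ?_
    rw [hlogeq, hHb]
    ring
  rw [hRHS]
  have := mul_le_mul_of_nonneg_left hI hκ0.le
  calc _ = |κ| * ((∑ τ', H gb τ') / (d + 1) *
        Real.log ((volume Lb).toReal / (volume (zonotope gb)).toReal)) := by ring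
    _ ≤ _ := this

/-- **The logarithmic Minkowski inequality at zonotopes.** -/
theorem log_minkowski_zonotope (d : ℕ) (g : ι → V (d + 1)) {L : Set (V (d + 1))}
    (hLc : IsCompact L) (hLv : Convex ℝ L) (hLs : ∀ x ∈ L, -x ∈ L) (hLp : 0 < volume L)
    (hZ : 0 < volume (zonotope g)) :
    (∑ τ, H g τ) / (d + 1) * Real.log ((volume L).toReal / (volume (zonotope g)).toReal) ≤
      ∑ τ, H g τ * Real.log (supOn L (phi g τ) / H g τ) := by
  classical
  induction d with
  | zero =>
    have := log_minkowski_base hLc hLs hLp g hZ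
    simpa using this
  | succ d ih =>
    have hstep := fun p => log_minkowski_step
      (fun g L h1 h2 h3 h4 h5 => ih g h1 h2 h3 h4 h5) g hLc hLv hLs hLp hZ p
    have hwlw := wlw hLc hLv hLp g hZ
    -- split `τ = Fin.cons p τ'`
    have hsplit : ∑ τ : Fin (d + 1) → ι, H g τ * Real.log (supOn L (phi g τ) / H g τ) =
        ∑ p, ∑ τ' : Fin d → ι, H g (Fin.cons p τ') *
          Real.log (supOn L (phi g (Fin.cons p τ')) / H g (Fin.cons p τ')) := by
      rw [← Finset.sum_product', Finset.univ_product_univ]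
      exact (Fintype.sum_equiv (Fin.consEquiv fun _ => ι) _ _ fun x => rfl).symm
    rw [hsplit, sum_H_eq_D]
    have hsumstep := Finset.sum_le_sum fun p (_ : p ∈ Finset.univ) => hstep p
    refine le_trans ?_ hsumstep
    have hd : (0 : ℝ) < (d : ℝ) + 1 := by positivity
    have h6 : ∑ p, A g p / ((d : ℝ) + 1) * Real.log (w (g p) L / w (g p) (zonotope g)) =
        (∑ p, A g p * Real.log (w (g p) L / w (g p) (zonotope g))) / ((d : ℝ) + 1) := by
      rw [Finset.sum_div]
      exact Finset.sum_congr rfl fun p _ => by ring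
    rw [h6, le_div_iff₀ hd]
    refine le_trans (le_of_eq ?_) hwlw
    push_cast
    ring

end Vale.Agent.Lib.P227Z
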