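import Vale.Agent.Lib.P227Z.G_Main

/-!
# Job H: statement with the Euclidean support function; Q1 when the log-combination is a zonotope
-/

open MeasureTheory Set Matrix
open scoped Pointwise ENNReal Nat

namespace Vale.Agent.Lib.P227Z

variable {ι : Type*} [Fintype ι]

/-- The support function `h_K (u) = sup_{x ∈ K} ⟪x, u⟫`. -/
noncomputable def supp {n : ℕ} (K : Set (V n)) (u : V n) : ℝ := sSup ((fun x => x ⬝ᵥ u) '' K)

/-- The normal vector of `phi g τ`: `x ⬝ᵥ nrm g τ = phi g τ x`. -/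
noncomputable def nrm {d : ℕ} (g : ι → V (d + 1)) (τ : Fin d → ι) : V (d + 1) :=
  fun i => phi g τ (Pi.single i 1)

/-- The Wulff body `⋂_{|u| = 1} {x | ⟪x, u⟫ ≤ f u}`. -/
def wulffV {n : ℕ} (f : V n → ℝ) : Set (V n) := {x | ∀ u, u ⬝ᵥ u = 1 → x ⬝ᵥ u ≤ f u}

/-- The logarithmic combination `(1 - t) K₀ +₀ t K₁ = W[h_{K₀}^(1-t) h_{K₁}^t]`. -/
noncomputable def logCombV {n : ℕ} (K₀ K₁ : Set (V n)) (t : ℝ) : Set (V n) :=
  wulffV fun u => supp K₀ u ^ (1 - t) * supp K₁ u ^ t

/-- A compact origin-symmetric set of positive volume. -/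
def SymB {n : ℕ} (K : Set (V n)) : Prop := IsCompact K ∧ (∀ x ∈ K, -x ∈ K) ∧ 0 < volume K

private lemma phi_linear_form {d : ℕ} (g : ι → V (d + 1)) (τ : Fin d → ι) :
    ∃ c : V (d + 1), ∀ x, phi g τ x = x ⬝ᵥ c := by
  refine ⟨fun j => (-1) ^ (j : ℕ) *
    Matrix.det ((Matrix.of fun k => g (τ k)).submatrix id j.succAbove), fun x => ?_⟩
  unfold phi dt
  rw [Matrix.det_succ_row_zero]
  simp only [dotProduct]
  refine Finset.sum_congr rfl fun j _ => ?_
  have : (Matrix.of (Fin.cons x fun j => g (τ j) : Fin (d + 1) → V (d + 1))).submatrix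
      Fin.succ j.succAbove = (Matrix.of fun k => g (τ k)).submatrix id j.succAbove := by
    ext a b
    simp
  rw [this]
  simp only [Matrix.of_apply, Fin.cons_zero]
  ring

theorem dot_nrm {d : ℕ} (g : ι → V (d + 1)) (τ : Fin d → ι) (x : V (d + 1)) :
    x ⬝ᵥ nrm g τ = phi g τ x := by
  obtain ⟨c, hc⟩ := phi_linear_form g τ
  have : nrm g τ = c := by
    funext i
    simp only [nrm]
    rw [hc]
    simp
  rw [this, hc]

private lemma sign_mul_self' (a : ℝ) : Real.sign a * a = |a| := by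
  rcases lt_trichotomy a 0 with h | h | h
  · rw [Real.sign_of_neg h, abs_of_neg h]; ring
  · simp [h]
  · rw [Real.sign_of_pos h, abs_of_pos h]; ring

private lemma abs_sign_le' (a : ℝ) : |Real.sign a| ≤ 1 := by
  rcases lt_trichotomy a 0 with h | h | h
  · rw [Real.sign_of_neg h]; simp
  · simp [h]
  · rw [Real.sign_of_pos h]; simp

private lemma sign_mul_le' (a b : ℝ) : Real.sign a * b ≤ |b| := by
  calc Real.sign a * b ≤ |Real.sign a * b| := le_abs_self _
    _ = |Real.sign a| * |b| := abs_mul _ _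
    _ ≤ 1 * |b| := by gcongr; exact abs_sign_le' a
    _ = |b| := one_mul _

/-- The vertex of the zonotope in the direction `v`. -/
private noncomputable def sgnPt {n : ℕ} (g : ι → V n) (v : V n) : V n :=
  ∑ r, Real.sign (g r ⬝ᵥ v) • g r

private lemma sgnPt_mem {n : ℕ} (g : ι → V n) (v : V n) : sgnPt g v ∈ zonotope g :=
  ⟨fun r => Real.sign (g r ⬝ᵥ v), fun _ => abs_sign_le' _, rfl⟩

private lemma sgnPt_dot {n : ℕ} (g : ι → V n) (u v : V n) :
    sgnPt g u ⬝ᵥ v = ∑ r, Real.sign (g r ⬝ᵥ u) * (g r ⬝ᵥ v) := by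
  simp only [sgnPt, sum_dotProduct, smul_dotProduct, smul_eq_mul]

private lemma sgnPt_dot_self {n : ℕ} (g : ι → V n) (v : V n) :
    sgnPt g v ⬝ᵥ v = ∑ r, |g r ⬝ᵥ v| := by
  rw [sgnPt_dot]
  exact Finset.sum_congr rfl fun r _ => sign_mul_self' _

private lemma zonotope_dot_le {n : ℕ} (g : ι → V n) (v : V n) {x : V n} (hx : x ∈ zonotope g) :
    x ⬝ᵥ v ≤ ∑ r, |g r ⬝ᵥ v| := by
  obtain ⟨t, ht, rfl⟩ := hx
  simp only [sum_dotProduct, smul_dotProduct, smul_eq_mul]
  refine Finset.sum_le_sum fun r _ => ?_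
  calc t r * (g r ⬝ᵥ v) ≤ |t r * (g r ⬝ᵥ v)| := le_abs_self _
    _ = |t r| * |g r ⬝ᵥ v| := abs_mul _ _
    _ ≤ 1 * |g r ⬝ᵥ v| := by gcongr; exact ht r
    _ = _ := one_mul _

/-- `h_Z (v) = ∑ r, |⟪g r, v⟫|`. -/
theorem supp_zonotope {n : ℕ} (g : ι → V n) (v : V n) :
    supp (zonotope g) v = ∑ r, |g r ⬝ᵥ v| := by
  unfold supp
  refine IsGreatest.csSup_eq ⟨⟨_, sgnPt_mem g v, sgnPt_dot_self g v⟩, ?_⟩
  rintro _ ⟨x, hx, rfl⟩
  exact zonotope_dot_le g v hx

/-- `h_Z (nrm g τ) = H g τ`. -/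
theorem supp_zonotope_nrm {d : ℕ} (g : ι → V (d + 1)) (τ : Fin d → ι) :
    supp (zonotope g) (nrm g τ) = H g τ := by
  rw [supp_zonotope]
  unfold H
  exact Finset.sum_congr rfl fun r _ => by rw [dot_nrm]

private lemma continuous_dot_left {n : ℕ} (v : V n) : Continuous fun x : V n => x ⬝ᵥ v := by
  unfold dotProduct
  fun_prop

private lemma continuous_dot_right {n : ℕ} (x : V n) : Continuous fun v : V n => x ⬝ᵥ v := by
  unfold dotProduct
  fun_prop

/-- Passing to the closed convex hull does not change linear suprema. -/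
private lemma sSup_closure_hull {n : ℕ} {L : Set (V n)} (hL : IsCompact L) (hne : L.Nonempty)
    (lf : V n →ₗ[ℝ] ℝ) (hb : BddAbove (lf '' closure (convexHull ℝ L))) :
    sSup (lf '' closure (convexHull ℝ L)) = sSup (lf '' L) := by
  have hclf : Continuous lf := lf.continuous_of_finiteDimensional
  have hbL : BddAbove (lf '' L) := hL.bddAbove_image hclf.continuousOn
  apply le_antisymm
  · refine csSup_le (hne.mono (subset_convexHull ℝ L |>.trans subset_closure) |>.image _) ?_
    rintro _ ⟨x, hx, rfl⟩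
    set s := sSup (lf '' L)
    have h1 : convexHull ℝ L ⊆ {y | lf y ≤ s} := by
      refine convexHull_min (fun y hy => le_csSup hbL ⟨y, hy, rfl⟩) ?_
      exact convex_halfSpace_le lf.isLinear s
    have h2 : IsClosed {y | lf y ≤ s} := isClosed_le hclf continuous_const
    exact closure_minimal h1 h2 hx
  · exact csSup_le_csSup hb (hne.image _)
      (image_mono ((subset_convexHull ℝ L).trans subset_closure))

/-- `log_minkowski_zonotope` for compact symmetric `L` without convexity (apply it to the closed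
convex hull: same support function, larger volume), with `supp` and `nrm`. -/
theorem log_minkowski_supp (d : ℕ) (g : ι → V (d + 1)) {L : Set (V (d + 1))} (hL : SymB L)
    (hZ : 0 < volume (zonotope g)) :
    (∑ τ, H g τ) / (d + 1) * Real.log ((volume L).toReal / (volume (zonotope g)).toReal) ≤
      ∑ τ, H g τ * Real.log (supp L (nrm g τ) / H g τ) := by
  obtain ⟨hLc, hLs, hLp⟩ := hL
  have hne : L.Nonempty := by
    by_contra hc
    rw [Set.not_nonempty_iff_eq_empty] at hc
    simp [hc] at hLp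
  set L' : Set (V (d + 1)) := closure (convexHull ℝ L) with hL'
  have hbd : Bornology.IsBounded L' :=
    (isBounded_convexHull.2 hLc.isBounded).closure
  have hL'c : IsCompact L' := Metric.isCompact_of_isClosed_isBounded isClosed_closure hbd
  have hL'v : Convex ℝ L' := (convex_convexHull ℝ L).closure
  have hL's : ∀ x ∈ L', -x ∈ L' := by
    have h1 : convexHull ℝ L ⊆ -convexHull ℝ L := by
      refine convexHull_min (fun x hx => ?_) (convex_convexHull ℝ L).neg
      exact subset_convexHull ℝ L (hLs x hx)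
    intro x hx
    have h2 : x ∈ closure (-convexHull ℝ L) := closure_mono h1 hx
    exact continuous_neg.closure_preimage_subset _ h2
  have hsub : L ⊆ L' := (subset_convexHull ℝ L).trans subset_closure
  have hL'p : 0 < volume L' := lt_of_lt_of_le hLp (measure_mono hsub)
  have key := log_minkowski_zonotope d g hL'c hL'v hL's hL'p hZ
  have hZfin : volume (zonotope g) ≠ ∞ := (isCompact_zonotope g).measure_lt_top.ne
  have hZr : 0 < (volume (zonotope g)).toReal := ENNReal.toReal_pos hZ.ne' hZfin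
  have hLr : 0 < (volume L).toReal := ENNReal.toReal_pos hLp.ne' hLc.measure_lt_top.ne
  have hL'r : (volume L).toReal ≤ (volume L').toReal :=
    ENNReal.toReal_mono hL'c.measure_lt_top.ne (measure_mono hsub)
  have hS : 0 ≤ (∑ τ, H g τ) / ((d : ℝ) + 1) := by
    refine div_nonneg (Finset.sum_nonneg fun τ _ => Finset.sum_nonneg fun r _ => abs_nonneg _) ?_
    positivity
  have hlog : Real.log ((volume L).toReal / (volume (zonotope g)).toReal) ≤
      Real.log ((volume L').toReal / (volume (zonotope g)).toReal) := by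
    refine Real.log_le_log (div_pos hLr hZr) ?_
    gcongr
  refine le_trans (mul_le_mul_of_nonneg_left hlog hS) (le_trans key (le_of_eq ?_))
  refine Finset.sum_congr rfl fun τ _ => ?_
  congr 3
  obtain ⟨c, hc⟩ := phi_linear_form g τ
  let lf : V (d + 1) →ₗ[ℝ] ℝ :=
    { toFun := fun x => x ⬝ᵥ nrm g τ
      map_add' := fun x y => add_dotProduct _ _ _
      map_smul' := fun a x => by simp [smul_dotProduct] }
  have hlfm : ∀ x, lf x = phi g τ x := fun x => dot_nrm g τ x
  have hb : BddAbove (lf '' L') := hL'c.bddAbove_image lf.continuous_of_finiteDimensional.continuousOn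
  have := sSup_closure_hull hLc hne lf hb
  unfold supOn supp
  have e1 : (phi g τ) = (lf : V (d + 1) → ℝ) := by funext x; exact (hlfm x).symm
  have e2 : (fun x : V (d + 1) => x ⬝ᵥ nrm g τ) = (lf : V (d + 1) → ℝ) := rfl
  rw [e1, e2]
  exact this

private lemma dot_self_nonneg' {n : ℕ} (v : V n) : 0 ≤ v ⬝ᵥ v :=
  Finset.sum_nonneg fun i _ => mul_self_nonneg _

/-- Two unit vectors have inner product at most one. -/
private lemma dot_le_one {n : ℕ} {u v : V n} (hu : u ⬝ᵥ u = 1) (hv : v ⬝ᵥ v = 1) : u ⬝ᵥ v ≤ 1 := by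
  have h := dot_self_nonneg' (u - v)
  rw [sub_dotProduct, dotProduct_sub, dotProduct_sub, hu, hv, dotProduct_comm v u] at h
  linarith

private lemma isCompact_sphere' (n : ℕ) : IsCompact {v : V n | v ⬝ᵥ v = 1} := by
  refine Metric.isCompact_of_isClosed_isBounded ?_ ?_
  · have : Continuous fun v : V n => v ⬝ᵥ v := by
      unfold dotProduct
      fun_prop
    exact isClosed_eq this continuous_const
  · refine (Metric.isBounded_closedBall (x := (0 : V n)) (r := 1)).subset fun v hv => ?_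
    rw [mem_closedBall_zero_iff, pi_norm_le_iff_of_nonneg zero_le_one]
    intro i
    have h1 : v i * v i ≤ v ⬝ᵥ v := by
      unfold dotProduct
      exact Finset.single_le_sum (f := fun i => v i * v i) (fun j _ => mul_self_nonneg _)
        (Finset.mem_univ i)
    rw [hv] at h1
    rw [Real.norm_eq_abs]
    exact abs_le_one_iff_mul_self_le_one.2 h1

private lemma phi_self_zero {d : ℕ} (g : ι → V (d + 1)) (τ : Fin d → ι) (j : Fin d) :
    phi g τ (g (τ j)) = 0 := by
  unfold phi dt
  refine Matrix.det_zero_of_row_eq (i := 0) (j := j.succ) (Fin.succ_ne_zero j).symm ?_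
  funext k
  simp

/-- A vector orthogonal to the rows `g ∘ τ` is a multiple of the normal. -/
private lemma eq_smul_nrm {d : ℕ} (g : ι → V (d + 1)) (τ : Fin d → ι) {x v : V (d + 1)}
    (hx : phi g τ x ≠ 0) (hv : ∀ j, g (τ j) ⬝ᵥ v = 0) :
    v = ((x ⬝ᵥ v) / phi g τ x) • nrm g τ := by
  set a := phi g τ x with ha
  set w : V (d + 1) := a • v - (x ⬝ᵥ v) • nrm g τ with hw
  have hdot : ∀ y : V (d + 1), y ⬝ᵥ w = a * (y ⬝ᵥ v) - (x ⬝ᵥ v) * phi g τ y := by
    intro y
    rw [hw, dotProduct_sub, dotProduct_smul, dotProduct_smul, dot_nrm]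
    simp
  have hw0 : w = 0 := by
    refine Matrix.eq_zero_of_mulVec_eq_zero (M := Matrix.of (Fin.cons x fun j => g (τ j))) hx ?_
    funext i
    refine Fin.cases ?_ (fun j => ?_) i
    · change x ⬝ᵥ w = 0
      rw [hdot]
      ring
    · change g (τ j) ⬝ᵥ w = 0
      rw [hdot, hv, phi_self_zero]
      ring
  have : a • v = (x ⬝ᵥ v) • nrm g τ := sub_eq_zero.1 hw0
  rw [div_eq_inv_mul, mul_smul, ← this, smul_smul, inv_mul_cancel₀ hx, one_smul]

/-- **Tightness of a Wulff body at the facet normals of a zonotope.**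
Suppose `f` is positively 1-homogeneous on nonzero vectors (`f (c • v) = c * f v`), continuous at
nonzero vectors, `wulffV f = zonotope g`, and `0 < H g τ`. Then `f (nrm g τ) = H g τ`. -/
theorem wulff_tight {d : ℕ} (g : ι → V (d + 1)) (τ : Fin d → ι) {f : V (d + 1) → ℝ}
    (hhom : ∀ (c : ℝ) (v : V (d + 1)), 0 < c → v ≠ 0 → f (c • v) = c * f v)
    (hcont : ∀ v, v ≠ 0 → ContinuousAt f v) (hW : wulffV f = zonotope g) (hH : 0 < H g τ) :
    f (nrm g τ) = H g τ := by
  classical
  set N := nrm g τ with hN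
  have hHN : H g τ = ∑ r, |g r ⬝ᵥ N| := by
    unfold H
    exact Finset.sum_congr rfl fun r _ => by rw [dot_nrm]
  have hN0 : N ≠ 0 := by
    intro h0
    rw [hHN, h0] at hH
    simp at hH
  have hNN : 0 < N ⬝ᵥ N := lt_of_le_of_ne (dot_self_nonneg' N) fun h =>
    hN0 (dotProduct_self_eq_zero.1 h.symm)
  set m := Real.sqrt (N ⬝ᵥ N) with hm
  have hm0 : 0 < m := Real.sqrt_pos.2 hNN
  have hm2 : m * m = N ⬝ᵥ N := Real.mul_self_sqrt hNN.le
  set u : V (d + 1) := m⁻¹ • N with hu
  have hmu : m • u = N := by rw [hu, smul_smul, mul_inv_cancel₀ hm0.ne', one_smul]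
  have huu : u ⬝ᵥ u = 1 := by
    rw [hu, smul_dotProduct, dotProduct_smul, ← hm2]
    simp only [smul_eq_mul]
    field_simp
  have hu0 : u ≠ 0 := by
    intro h0
    rw [h0] at hmu
    simp at hmu
    exact hN0 hmu.symm
  have hzhom : ∑ r, |g r ⬝ᵥ N| = m * ∑ r, |g r ⬝ᵥ u| := by
    rw [Finset.mul_sum]
    refine Finset.sum_congr rfl fun r _ => ?_
    rw [← hmu, dotProduct_smul, smul_eq_mul, abs_mul, abs_of_pos hm0]
  have hzu : 0 < ∑ r, |g r ⬝ᵥ u| := by
    rw [hHN, hzhom] at hH
    exact (mul_pos_iff_of_pos_left hm0).1 hH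
  -- every point of the zonotope satisfies the Wulff constraints
  have hsupp : ∀ v, v ⬝ᵥ v = 1 → ∑ r, |g r ⬝ᵥ v| ≤ f v := by
    intro v hv
    have hmem : sgnPt g v ∈ wulffV f := by rw [hW]; exact sgnPt_mem g v
    have := hmem v hv
    rwa [sgnPt_dot_self] at this
  have hfu : f u ≤ ∑ r, |g r ⬝ᵥ u| := by
    by_contra hcon
    push Not at hcon
    set x₀ := sgnPt g u with hx₀
    have hcF : ContinuousOn (fun v => f v - x₀ ⬝ᵥ v) {v : V (d + 1) | v ⬝ᵥ v = 1} := by
      intro v hv
      have hv0 : v ≠ 0 := by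
        rintro rfl
        simp at hv
      exact (((hcont v hv0).sub (continuous_dot_right x₀).continuousAt)).continuousWithinAt
    obtain ⟨v₀, hv₀, hmin⟩ := (isCompact_sphere' (d + 1)).exists_isMinOn ⟨u, huu⟩ hcF
    set ε := f v₀ - x₀ ⬝ᵥ v₀ with hε
    have hmin' : ∀ v, v ⬝ᵥ v = 1 → ε ≤ f v - x₀ ⬝ᵥ v := fun v hv => hmin hv
    have hv₀' : v₀ ⬝ᵥ v₀ = 1 := hv₀
    have hεpos : 0 < ε := by
      by_contra hle
      push Not at hle
      have h1 : ∑ r, |g r ⬝ᵥ v₀| ≤ x₀ ⬝ᵥ v₀ := by
        have := hsupp v₀ hv₀'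
        linarith
      have h2 : x₀ ⬝ᵥ v₀ = ∑ r, Real.sign (g r ⬝ᵥ u) * (g r ⬝ᵥ v₀) := sgnPt_dot g u v₀
      rw [h2] at h1
      have h3 : ∀ r ∈ (Finset.univ : Finset ι),
          Real.sign (g r ⬝ᵥ u) * (g r ⬝ᵥ v₀) ≤ |g r ⬝ᵥ v₀| := fun r _ => sign_mul_le' _ _
      have h4 := (Finset.sum_eq_sum_iff_of_le h3).1 (le_antisymm (Finset.sum_le_sum h3) h1)
      have h5 : ∀ j, g (τ j) ⬝ᵥ v₀ = 0 := by
        intro j
        have h6 : g (τ j) ⬝ᵥ u = 0 := by
          rw [hu, dotProduct_smul, hN, dot_nrm, phi_self_zero]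
          simp
        have := h4 (τ j) (Finset.mem_univ _)
        rw [h6, Real.sign_zero, zero_mul] at this
        exact abs_eq_zero.1 this.symm
      -- a generator with nonzero value of `phi`
      obtain ⟨r, hr⟩ : ∃ r, phi g τ (g r) ≠ 0 := by
        by_contra hall
        push Not at hall
        have : H g τ = 0 := by
          unfold H
          simp [hall]
        exact hH.ne' this
      have hv₀N := eq_smul_nrm g τ hr h5
      set c := (g r ⬝ᵥ v₀) / phi g τ (g r) with hc
      have hcm : (c * m) * (c * m) = 1 := by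
        have : v₀ ⬝ᵥ v₀ = c * c * (N ⬝ᵥ N) := by
          conv_lhs => rw [hv₀N]
          rw [smul_dotProduct, dotProduct_smul]
          simp only [smul_eq_mul]
          ring
        rw [hv₀', ← hm2] at this
        linarith
      have hv₀u : v₀ = (c * m) • u := by
        conv_lhs => rw [hv₀N]
        rw [mul_smul, hmu]
      have hcases : c * m = 1 ∨ c * m = -1 := mul_self_eq_one_iff.1 hcm
      rcases hcases with hp | hp
      · rw [hp, one_smul] at hv₀u
        rw [hε, hv₀u, hx₀, sgnPt_dot_self] at hle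
        linarith
      · rw [hp, neg_smul, one_smul] at hv₀u
        have h7 : ∑ r, |g r ⬝ᵥ v₀| = ∑ r, |g r ⬝ᵥ u| :=
          Finset.sum_congr rfl fun r _ => by rw [hv₀u, dotProduct_neg, abs_neg]
        have h8 : x₀ ⬝ᵥ v₀ = -∑ r, |g r ⬝ᵥ u| := by
          rw [hv₀u, dotProduct_neg, hx₀, sgnPt_dot_self]
        have h9 := hsupp v₀ hv₀'
        rw [h7] at h9
        have h10 : f v₀ - x₀ ⬝ᵥ v₀ ≤ 0 := hle
        rw [h8] at h10
        linarith
    have hy : x₀ + ε • u ∈ wulffV f := by
      intro v hv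
      have h1 := dot_le_one huu hv
      have h2 := hmin' v hv
      rw [add_dotProduct, smul_dotProduct, smul_eq_mul]
      nlinarith
    rw [hW] at hy
    have h3 := zonotope_dot_le g u hy
    rw [add_dotProduct, smul_dotProduct, smul_eq_mul, huu, hx₀, sgnPt_dot_self] at h3
    linarith
  have hfu' : f u = ∑ r, |g r ⬝ᵥ u| := le_antisymm hfu (hsupp u huu)
  rw [← hmu, hhom m u hm0 hu0, hfu', hHN, ← hzhom]

/-- Positivity of the support function of a symmetric convex body with positive volume. -/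
private lemma supp_pos {n : ℕ} {K : Set (V n)} (hK : SymB K) {v : V n} (hv : v ≠ 0) :
    0 < supp K v := by
  obtain ⟨hc, hs, hp⟩ := hK
  have hbd : BddAbove ((fun x => x ⬝ᵥ v) '' K) :=
    hc.bddAbove_image (continuous_dot_left v).continuousOn
  by_contra hle
  push Not at hle
  have hall : ∀ x ∈ K, x ⬝ᵥ v = 0 := by
    intro x hx
    have h1 : x ⬝ᵥ v ≤ supp K v := le_csSup hbd ⟨x, hx, rfl⟩
    have h2 : (-x) ⬝ᵥ v ≤ supp K v := le_csSup hbd ⟨-x, hs x hx, rfl⟩
    rw [neg_dotProduct] at h2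
    linarith
  let lf : V n →ₗ[ℝ] ℝ :=
    { toFun := fun x => x ⬝ᵥ v
      map_add' := fun x y => add_dotProduct _ _ _
      map_smul' := fun a x => by simp [smul_dotProduct] }
  have hker : LinearMap.ker lf ≠ ⊤ := by
    intro htop
    have h1 : v ∈ LinearMap.ker lf := by rw [htop]; trivial
    exact hv (dotProduct_self_eq_zero.1 h1)
  have h0 : volume ((LinearMap.ker lf : Submodule ℝ (V n)) : Set (V n)) = 0 :=
    Measure.addHaar_submodule volume _ hker
  have hsub : K ⊆ (LinearMap.ker lf : Submodule ℝ (V n)) := fun x hx => hall x hx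
  exact hp.ne' (measure_mono_null hsub h0)

private lemma supp_smul {n : ℕ} (K : Set (V n)) {c : ℝ} (hc : 0 < c) (v : V n) :
    supp K (c • v) = c * supp K v := by
  unfold supp
  have : (fun x => x ⬝ᵥ c • v) '' K = c • ((fun x => x ⬝ᵥ v) '' K) := by
    ext y
    simp only [mem_image, mem_smul_set]
    constructor
    · rintro ⟨x, hx, rfl⟩
      exact ⟨_, ⟨x, hx, rfl⟩, by simp [dotProduct_smul]⟩
    · rintro ⟨_, ⟨x, hx, rfl⟩, rfl⟩
      exact ⟨x, hx, by simp [dotProduct_smul]⟩
  rw [this, Real.sSup_smul_of_nonneg hc.le, smul_eq_mul]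

private lemma supp_continuous {n : ℕ} {K : Set (V n)} (hK : IsCompact K) :
    Continuous (supp K) := by
  unfold supp
  refine IsCompact.continuous_sSup (f := fun (u x : V n) => x ⬝ᵥ u) hK ?_
  unfold dotProduct
  simp only [Function.HasUncurry.uncurry, id]
  fun_prop

/-- **Q1 when the log-combination is a zonotope.**
`supp K` is convex, continuous and positive on nonzero vectors for `K` with `SymB K`;
`log_minkowski_supp` for `K₀` and `K₁`, weights `1-t`, `t`, and `wulff_tight` make the right side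
vanish. -/
theorem q1_of_zonotope {d : ℕ} {K₀ K₁ : Set (V (d + 1))} (h₀ : SymB K₀) (h₁ : SymB K₁) {t : ℝ}
    (t0 : 0 ≤ t) (t1 : t ≤ 1) (g : ι → V (d + 1)) (hZ : 0 < volume (zonotope g))
    (hQ : logCombV K₀ K₁ t = zonotope g) :
    volume K₀ ^ (1 - t) * volume K₁ ^ t ≤ volume (logCombV K₀ K₁ t) := by
  classical
  set f : V (d + 1) → ℝ := fun u => supp K₀ u ^ (1 - t) * supp K₁ u ^ t with hf
  have hW : wulffV f = zonotope g := hQ
  have hhom : ∀ (c : ℝ) (v : V (d + 1)), 0 < c → v ≠ 0 → f (c • v) = c * f v := by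
    intro c v hc hv
    have h0 := supp_pos h₀ hv
    have h1 := supp_pos h₁ hv
    simp only [hf]
    rw [supp_smul _ hc, supp_smul _ hc, Real.mul_rpow hc.le h0.le, Real.mul_rpow hc.le h1.le]
    have : c ^ (1 - t) * c ^ t = c := by
      rw [← Real.rpow_add hc]
      simp
    calc c ^ (1 - t) * supp K₀ v ^ (1 - t) * (c ^ t * supp K₁ v ^ t)
        = (c ^ (1 - t) * c ^ t) * (supp K₀ v ^ (1 - t) * supp K₁ v ^ t) := by ring
      _ = _ := by rw [this]
  have hcont : ∀ v, v ≠ 0 → ContinuousAt f v := by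
    intro v hv
    have h0 := supp_pos h₀ hv
    have h1 := supp_pos h₁ hv
    exact ((supp_continuous h₀.1).continuousAt.rpow_const (Or.inl h0.ne')).mul
      ((supp_continuous h₁.1).continuousAt.rpow_const (Or.inl h1.ne'))
  -- the weighted sum of the two inequalities
  have key₀ := log_minkowski_supp d g h₀ hZ
  have key₁ := log_minkowski_supp d g h₁ hZ
  have hright : ∑ τ, H g τ * ((1 - t) * Real.log (supp K₀ (nrm g τ) / H g τ) +
      t * Real.log (supp K₁ (nrm g τ) / H g τ)) = 0 := by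
    refine Finset.sum_eq_zero fun τ _ => ?_
    have hHnn : 0 ≤ H g τ := Finset.sum_nonneg fun r _ => abs_nonneg _
    rcases hHnn.eq_or_lt with h0 | hpos
    · rw [← h0, zero_mul]
    · have htight := wulff_tight g τ hhom hcont hW hpos
      have hN0 : nrm g τ ≠ 0 := by
        intro h0
        have : H g τ = 0 := by
          unfold H
          refine Finset.sum_eq_zero fun r _ => ?_
          rw [← dot_nrm, h0]
          simp
        exact hpos.ne' this
      have a0 := supp_pos h₀ hN0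
      have a1 := supp_pos h₁ hN0
      have hlog : (1 - t) * Real.log (supp K₀ (nrm g τ)) + t * Real.log (supp K₁ (nrm g τ)) =
          Real.log (H g τ) := by
        rw [← htight]
        simp only [hf]
        rw [Real.log_mul (Real.rpow_pos_of_pos a0 _).ne' (Real.rpow_pos_of_pos a1 _).ne',
          Real.log_rpow a0, Real.log_rpow a1]
      rw [Real.log_div a0.ne' hpos.ne', Real.log_div a1.ne' hpos.ne']
      have : (1 - t) * (Real.log (supp K₀ (nrm g τ)) - Real.log (H g τ)) +
          t * (Real.log (supp K₁ (nrm g τ)) - Real.log (H g τ)) =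
          ((1 - t) * Real.log (supp K₀ (nrm g τ)) + t * Real.log (supp K₁ (nrm g τ))) -
            Real.log (H g τ) := by ring
      rw [this, hlog]
      simp
  have hsum : (∑ τ, H g τ) / ((d : ℝ) + 1) *
      ((1 - t) * Real.log ((volume K₀).toReal / (volume (zonotope g)).toReal) +
        t * Real.log ((volume K₁).toReal / (volume (zonotope g)).toReal)) ≤ 0 := by
    rw [← hright]
    have e : ∑ τ, H g τ * ((1 - t) * Real.log (supp K₀ (nrm g τ) / H g τ) +
        t * Real.log (supp K₁ (nrm g τ) / H g τ)) =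
        (1 - t) * ∑ τ, H g τ * Real.log (supp K₀ (nrm g τ) / H g τ) +
          t * ∑ τ, H g τ * Real.log (supp K₁ (nrm g τ) / H g τ) := by
      rw [Finset.mul_sum, Finset.mul_sum, ← Finset.sum_add_distrib]
      exact Finset.sum_congr rfl fun τ _ => by ring
    rw [e]
    have t0' : 0 ≤ 1 - t := by linarith
    nlinarith [mul_le_mul_of_nonneg_left key₀ t0', mul_le_mul_of_nonneg_left key₁ t0]
  -- positivity of the total
  have hZfin : volume (zonotope g) ≠ ∞ := (isCompact_zonotope g).measure_lt_top.ne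
  have hZr : 0 < (volume (zonotope g)).toReal := ENNReal.toReal_pos hZ.ne' hZfin
  have hSpos : 0 < ∑ τ, H g τ := by
    rw [sum_H_eq_D]
    have hvz := volume_zonotope (d + 1) g
    by_contra hle
    push Not at hle
    have hD : 0 ≤ D g := Finset.sum_nonneg fun σ _ => abs_nonneg _
    have hD0 : D g = 0 := le_antisymm hle hD
    rw [hD0, mul_zero] at hvz
    linarith
  have hq : 0 < (∑ τ, H g τ) / ((d : ℝ) + 1) := by positivity
  have hlogle : (1 - t) * Real.log ((volume K₀).toReal / (volume (zonotope g)).toReal) +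
      t * Real.log ((volume K₁).toReal / (volume (zonotope g)).toReal) ≤ 0 :=
    nonpos_of_mul_nonpos_right hsum hq
  have hK₀fin : volume K₀ ≠ ∞ := h₀.1.measure_lt_top.ne
  have hK₁fin : volume K₁ ≠ ∞ := h₁.1.measure_lt_top.ne
  have hA : 0 < (volume K₀).toReal := ENNReal.toReal_pos h₀.2.2.ne' hK₀fin
  have hB : 0 < (volume K₁).toReal := ENNReal.toReal_pos h₁.2.2.ne' hK₁fin
  rw [Real.log_div hA.ne' hZr.ne', Real.log_div hB.ne' hZr.ne'] at hlogle
  rw [hQ]
  set a := (volume K₀).toReal with ha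
  set b := (volume K₁).toReal with hb
  set z := (volume (zonotope g)).toReal with hz
  have hreal : a ^ (1 - t) * b ^ t ≤ z := by
    have h1 : Real.log (a ^ (1 - t) * b ^ t) ≤ Real.log z := by
      rw [Real.log_mul (Real.rpow_pos_of_pos hA _).ne' (Real.rpow_pos_of_pos hB _).ne',
        Real.log_rpow hA, Real.log_rpow hB]
      nlinarith
    exact (Real.log_le_log_iff (mul_pos (Real.rpow_pos_of_pos hA _) (Real.rpow_pos_of_pos hB _))
      hZr).1 h1
  have e0 : volume K₀ = ENNReal.ofReal a := (ENNReal.ofReal_toReal hK₀fin).symm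
  have e1 : volume K₁ = ENNReal.ofReal b := (ENNReal.ofReal_toReal hK₁fin).symm
  have ez : volume (zonotope g) = ENNReal.ofReal z := (ENNReal.ofReal_toReal hZfin).symm
  rw [e0, e1, ez]
  have hne : ENNReal.ofReal a ^ (1 - t) * ENNReal.ofReal b ^ t =
      ENNReal.ofReal (a ^ (1 - t) * b ^ t) := by
    rw [ENNReal.ofReal_rpow_of_pos hA, ENNReal.ofReal_rpow_of_pos hB,
      ENNReal.ofReal_mul (Real.rpow_pos_of_pos hA _).le]
  rw [hne]
  exact ENNReal.ofReal_le_ofReal hreal

end Vale.Agent.Lib.P227Z
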